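import Vale.Agent.P207.N4.H862.BusSg
import Vale.Agent.P207.N3.H862.Inv
import Vale.Agent.P207.N4.H722.Disc

/-!
# P207: the Darboux transition, part A: the unit vector with given momentum

Over `I : GeoIn L V`: for a point `q` of the disc of the frame `x` and a covector `P` of the disc,
the unit vector at the point of the disc on the positive side with tangential part `P`, and the
point at infinity it comes from; joint smoothness.
-/

set_option linter.unusedSectionVars false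

open Set Filter Topology Metric
open scoped ContDiff

noncomputable section

namespace Vale.Agent.P207.N4.H248

open Vale.Agent.P207.N3

open Vale.Agent.P207.N4.H722
open Vale.Agent.P207.N4.H862

variable [Dim] {Γ X B : Type} [Group Γ] [MetricSpace X] [ProperSpace X] [MulAction Γ X]
  [IsIsometricSMul Γ X] [TopologicalSpace B] [CompactSpace B] [T2Space B] [MulAction Γ B]
  [ContinuousConstSMul Γ B] {L : Leaf Γ X B} {V : Type} [NormedAddCommGroup V] [NormedSpace ℝ V]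
  [FiniteDimensional ℝ V] (I : GeoIn L V)

/-! ### covectors -/

/-- the vector of a covector -/
def cvv : (E2 →L[ℝ] ℝ) →L[ℝ] E2 :=
  LinearMap.toContinuousLinearMap
    { toFun := fun α => (InnerProductSpace.toDual ℝ E2).symm α
      map_add' := fun α β => map_add _ α β
      map_smul' := fun c α => by simp }

theorem inner_cvv (α : E2 →L[ℝ] ℝ) (v : E2) : inner ℝ (cvv α) v = α v :=
  InnerProductSpace.toDual_symm_apply

theorem gradient_cvv (f : E2 → ℝ) (t : E2) : gradient f t = cvv (fderiv ℝ f t) := rfl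

/-- the momentum of the vector `v` at the point `q` of the disc of `x` -/
def mo (x : X) (q : E2) (v : V) : E2 := cvv ((I.G (disc I x q) v).comp (tg I x q))

theorem inner_mo (x : X) (q : E2) (v : V) (a : E2) :
    inner ℝ (mo I x q v) a = I.G (disc I x q) v (tg I x q a) := by
  rw [mo, inner_cvv]
  rfl

/-- the momentum is linear -/
def moL (x : X) (q : E2) : V →L[ℝ] E2 :=
  cvv.comp (((ContinuousLinearMap.compL ℝ E2 V ℝ).flip (tg I x q)).comp (I.G (disc I x q)))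

theorem moL_apply (x : X) (q : E2) (v : V) : moL I x q v = mo I x q v := rfl

theorem mo_vel (x : X) (ξ : B) {q : E2} (hq : q ∈ ball (0 : E2) I.S.R) :
    mo I x q (I.vel ξ (disc I x q)) = gradient (be I x ξ) q := by
  refine ext_inner_right ℝ fun a => ?_
  rw [inner_mo, gradient_be I x ξ hq]

/-! ### the map (position, velocity) to (position, momentum, square of the length) -/

/-- position, momentum and square of the length -/
def Ff (x : X) (p : E2 × V) : E2 × (E2 × ℝ) :=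
  (p.1, (mo I x p.1 p.2, I.G (disc I x p.1) p.2 p.2))

/-- the domain -/
def FD (x : X) : Set (E2 × V) := ball 0 I.S.R ×ˢ univ

theorem isOpen_FD : IsOpen ((univ : Set X) ×ˢ (ball (0 : E2) I.S.R ×ˢ (univ : Set V))) :=
  isOpen_univ.prod (isOpen_ball.prod isOpen_univ)

theorem tg_jc : JC (tg I) (univ ×ˢ ball 0 I.S.R) :=
  (DA_jc I).clm_comp (JC.const (isOpen_univ.prod isOpen_ball) _)

theorem G_jc : JC (fun x (q : E2) => I.G (disc I x q)) (univ ×ˢ ball 0 I.S.R) :=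
  (disc_jc I).comp_contDiff I.G_smooth

theorem Ff_jc : JC (Ff I) (univ ×ˢ (ball 0 I.S.R ×ˢ univ)) := by
  have hO := isOpen_FD I (X := X)
  have h1 : JC (fun (_ : X) (p : E2 × V) => p.1) (univ ×ˢ (ball 0 I.S.R ×ˢ univ)) :=
    JC.of_contDiff contDiff_fst hO
  have h2 : JC (fun (_ : X) (p : E2 × V) => p.2) (univ ×ˢ (ball 0 I.S.R ×ˢ univ)) :=
    JC.of_contDiff contDiff_snd hO
  have h3 : JC (fun (x : X) (p : E2 × V) => I.G (disc I x p.1)) (univ ×ˢ (ball 0 I.S.R ×ˢ univ)) :=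
    (G_jc I).comp' h1 fun p hp => ⟨mem_univ _, hp.2.1⟩
  have h4 : JC (fun (x : X) (p : E2 × V) => tg I x p.1) (univ ×ˢ (ball 0 I.S.R ×ˢ univ)) :=
    (tg_jc I).comp' h1 fun p hp => ⟨mem_univ _, hp.2.1⟩
  have h5 : JC (fun (x : X) (p : E2 × V) => mo I x p.1 p.2)
      (univ ×ˢ (ball 0 I.S.R ×ˢ univ)) :=
    ((h3.clm_apply h2).clm_comp h4).clm cvv
  exact h1.prodMk (h5.prodMk ((h3.clm_apply h2).clm_apply h2))

include I in
theorem finrank_V' (x : X) : Module.finrank ℝ V = Module.finrank ℝ (ℝ × E2) := by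
  have h := LinearEquiv.ofBijective (DA I x 0).toLinearMap (DA_bij I x I.S.zero_mem)
  exact h.finrank_eq.symm

include I in
theorem finrank_F (x : X) :
    Module.finrank ℝ (E2 × V) = Module.finrank ℝ (E2 × (E2 × ℝ)) := by
  rw [Module.finrank_prod, Module.finrank_prod, Module.finrank_prod, finrank_V' I x,
    Module.finrank_prod]
  ring

theorem Ff_deriv_v (x : X) (q : E2) (v : V) : HasFDerivAt (fun v : V => Ff I x (q, v))
    ((0 : V →L[ℝ] E2).prod ((moL I x q).prod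
      (((I.G (disc I x q)).flip v) + (I.G (disc I x q) v)))) v := by
  refine (hasFDerivAt_const q v).prodMk (((moL I x q).hasFDerivAt).prodMk ?_)
  have h := (I.G (disc I x q)).hasFDerivAt (x := v) |>.clm_apply (hasFDerivAt_id v)
  refine h.congr_fderiv ?_
  ext w
  simp [add_comm]

theorem Ff_inj (x : X) {q : E2} (hq : q ∈ ball (0 : E2) I.S.R) {v w : V} (hv : al I x q v ≠ 0)
    (e6 : moL I x q w = 0) (e8 : I.G (disc I x q) w v = 0) : w = 0 := by
  have e9 : ∀ b, I.G (disc I x q) w (tg I x q b) = 0 := fun b => by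
    rw [← inner_mo, ← moL_apply, e6, inner_zero_left]
  obtain ⟨b, hb⟩ := exists_tg I x hq (w := w - (al I x q w / al I x q v) • v) (by
    rw [map_sub, map_smul, smul_eq_mul, div_mul_cancel₀ _ hv, sub_self])
  have e10 : I.G (disc I x q) w w = 0 := by
    have h2 : w = tg I x q b + (al I x q w / al I x q v) • v := by rw [hb]; abel
    have h3 : I.G (disc I x q) w w
        = I.G (disc I x q) w (tg I x q b + (al I x q w / al I x q v) • v) := by rw [← h2]
    rw [h3, map_add, map_smul, e8, smul_zero, e9, add_zero]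
  by_contra hne
  exact (I.G_pos _ w hne).ne' e10

theorem Ff_D1 (x : X) {q : E2} {v : V} {D : E2 × V →L[ℝ] E2 × (E2 × ℝ)}
    (hd : HasFDerivAt (Ff I x) D (q, v)) (z : E2 × V) : (D z).1 = z.1 := by
  have e1 : HasFDerivAt (fun p => (Ff I x p).1)
      ((ContinuousLinearMap.fst ℝ E2 (E2 × ℝ)).comp D) (q, v) := hasFDerivAt_fst.comp (q, v) hd
  have e2 : HasFDerivAt (fun p => (Ff I x p).1) (ContinuousLinearMap.fst ℝ E2 V) (q, v) :=
    hasFDerivAt_fst
  exact DFunLike.congr_fun (e1.unique e2) z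

theorem Ff_D2 (x : X) {q : E2} {v : V} {D : E2 × V →L[ℝ] E2 × (E2 × ℝ)}
    (hd : HasFDerivAt (Ff I x) D (q, v)) (w : V) :
    D (0, w) = (0, (moL I x q w, I.G (disc I x q) w v + I.G (disc I x q) v w)) := by
  have e1 : HasFDerivAt (fun v : V => ((q, v) : E2 × V)) (ContinuousLinearMap.inr ℝ E2 V) v :=
    hasFDerivAt_prodMk_right q v
  have e2 : HasFDerivAt (fun v : V => Ff I x (q, v))
      (D.comp (ContinuousLinearMap.inr ℝ E2 V)) v := HasFDerivAt.comp v hd e1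
  exact DFunLike.congr_fun (e2.unique (Ff_deriv_v I x q v)) w

theorem Ff_Dinj (x : X) {q : E2} (hq : q ∈ ball (0 : E2) I.S.R) {v : V} (hv : al I x q v ≠ 0)
    {D : E2 × V →L[ℝ] E2 × (E2 × ℝ)} (hd : HasFDerivAt (Ff I x) D (q, v)) :
    Function.Injective D := by
  rw [injective_iff_map_eq_zero]
  rintro ⟨a, w⟩ h
  have h1 : a = 0 := by
    have e := Ff_D1 I x hd (a, w)
    rw [h] at e
    exact e.symm
  subst h1
  have h2 := Ff_D2 I x hd w
  rw [h] at h2
  have e6 : moL I x q w = 0 := (congrArg (fun z : E2 × (E2 × ℝ) => z.2.1) h2).symm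
  have e7 : I.G (disc I x q) w v + I.G (disc I x q) v w = 0 :=
    (congrArg (fun z : E2 × (E2 × ℝ) => z.2.2) h2).symm
  have e8 : I.G (disc I x q) w v = 0 := by
    rw [I.G_symm (disc I x q) v w] at e7
    linarith
  rw [Ff_inj I x hq hv e6 e8]
  rfl

theorem inv_of_inj {E F : Type} [NormedAddCommGroup E] [NormedSpace ℝ E] [FiniteDimensional ℝ E]
    [NormedAddCommGroup F] [NormedSpace ℝ F] [FiniteDimensional ℝ F]
    (h : Module.finrank ℝ E = Module.finrank ℝ F) (D : E →L[ℝ] F) (hD : Function.Injective D) :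
    D.IsInvertible := by
  have : CompleteSpace E := FiniteDimensional.complete ℝ E
  have : CompleteSpace F := FiniteDimensional.complete ℝ F
  exact H459.isInvertible_of_bijective ⟨hD,
    (LinearMap.injective_iff_surjective_of_finrank_eq_finrank h (f := D.toLinearMap)).1 hD⟩

theorem Ff_hd {p : X × (E2 × V)} (hp : p.2.1 ∈ ball (0 : E2) I.S.R) :
    HasFDerivAt (Ff I p.1) (fderiv ℝ (Ff I p.1) p.2) p.2 :=
  (Ff_jc I).hasFDerivAt (p := p) ⟨mem_univ _, hp, mem_univ _⟩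

theorem Ff_inv' {p : X × (E2 × V)} (hp : p.2.1 ∈ ball (0 : E2) I.S.R)
    (hv : al I p.1 p.2.1 p.2.2 ≠ 0) : (fderiv ℝ (Ff I p.1) p.2).IsInvertible := by
  have h2 := finrank_F I p.1
  exact inv_of_inj h2 _ (Ff_Dinj I p.1 hp hv (Ff_hd I hp))

theorem Ff_inv (x : X) {q : E2} (hq : q ∈ ball (0 : E2) I.S.R) {v : V} (hv : al I x q v ≠ 0) :
    (fderiv ℝ (Ff I x) (q, v)).IsInvertible := Ff_inv' I (p := (x, (q, v))) hq hv

/-! ### the label of a covector -/

/-- the covectors `P` at `q` of the directions on the positive side -/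
def OmP : Set (X × (E2 × E2)) :=
  {z | z.2.1 ∈ ball (0 : E2) 3 ∧ ∃ ξ, 0 < nu I z.1 ξ z.2.1 ∧ gradient (be I z.1 ξ) z.2.1 = z.2.2}

open Classical in
/-- the point at infinity from which the direction with momentum `P` comes -/
def lbP (x : X) (z : E2 × E2) : B :=
  if h : ∃ ξ, 0 < nu I x ξ z.1 ∧ gradient (be I x ξ) z.1 = z.2 then h.choose else L.em x

theorem lbP_spec {x : X} {z : E2 × E2} (h : (x, z) ∈ OmP I) :
    0 < nu I x (lbP I x z) z.1 ∧ gradient (be I x (lbP I x z)) z.1 = z.2 := by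
  have h1 := h.2
  rw [lbP, dif_pos h1]
  exact h1.choose_spec

theorem lbP_eq {x : X} {q : E2} (hq : q ∈ ball (0 : E2) 3) {ξ : B} (h : 0 < nu I x ξ q) :
    lbP I x (q, gradient (be I x ξ) q) = ξ := by
  have h1 : (x, (q, gradient (be I x ξ) q)) ∈ OmP I := ⟨hq, ξ, h, rfl⟩
  obtain ⟨h2, h3⟩ := lbP_spec I h1
  exact cov_inj I x _ _ hq h2.le h.le h3

theorem mem_OmP {x : X} {q : E2} (hq : q ∈ ball (0 : E2) 3) {ξ : B} (h : 0 < nu I x ξ q) :
    (x, (q, gradient (be I x ξ) q)) ∈ OmP I := ⟨hq, ξ, h, rfl⟩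

/-- the direction with momentum `P` -/
def vP (x : X) (z : E2 × E2) : V := I.vel (lbP I x z) (disc I x z.1)

theorem vP_eq {x : X} {q P : E2} (hq : q ∈ ball (0 : E2) 3) {v : V}
    (h1 : I.G (disc I x q) v v = 1) (h2 : 0 < al I x q v) (h3 : mo I x q v = P) :
    (x, (q, P)) ∈ OmP I ∧ vP I x (q, P) = v := by
  obtain ⟨ξ, hξ⟩ := I.exists_vel H459.invThm h1
  have hR := mem3 I hq
  have h4 : 0 < nu I x ξ q := by rw [nu_pos_iff I x ξ hR, hξ]; exact h2
  have h5 : gradient (be I x ξ) q = P := by rw [← mo_vel I x ξ hR, hξ, h3]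
  subst h5
  refine ⟨mem_OmP I hq h4, ?_⟩
  rw [vP, lbP_eq I hq h4, hξ]

theorem vP_local {x₀ : X} {z₀ : E2 × E2} (h : (x₀, z₀) ∈ OmP I) :
    ∃ (T : Set (X × (E2 × E2))) (G : X → E2 × E2 → V), JC G T ∧ (x₀, z₀) ∈ T ∧
      ∀ p ∈ T, p ∈ OmP I ∧ vP I p.1 p.2 = G p.1 p.2 := by
  obtain ⟨q₀, P₀⟩ := z₀
  obtain ⟨hn, hg⟩ := lbP_spec I h
  set ξ₀ := lbP I x₀ (q₀, P₀) with hξ
  have hq : q₀ ∈ ball (0 : E2) 3 := h.1
  have hR := mem3 I hq
  set v₀ := I.vel ξ₀ (disc I x₀ q₀) with hv₀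
  have hal : 0 < al I x₀ q₀ v₀ := (nu_pos_iff I x₀ ξ₀ hR).1 hn
  have hmem : ((x₀, (q₀, v₀)) : X × (E2 × V)) ∈
      ((univ : Set X) ×ˢ (ball (0 : E2) I.S.R ×ˢ (univ : Set V))) := ⟨mem_univ _, hR, mem_univ _⟩
  obtain ⟨T, g, h1, h2, h3, h4, h5, O, hO, h6, h7⟩ :=
    (Ff_jc I).inverse_local hmem (Ff_inv I x₀ hR hal.ne')
  have hF : Ff I x₀ (q₀, v₀) = (q₀, (P₀, 1)) := by
    have e1 : mo I x₀ q₀ v₀ = P₀ := by
      rw [hv₀, mo_vel I x₀ ξ₀ hR]
      exact hg
    have e2 : I.G (disc I x₀ q₀) v₀ v₀ = 1 := I.G_vel H459.invThm _ _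
    rw [Ff, e1, e2]
  rw [hF] at h2 h3
  -- the local map
  have hc : ContDiff ℝ ∞ fun z : E2 × E2 => ((z.1, (z.2, 1)) : E2 × (E2 × ℝ)) :=
    contDiff_fst.prodMk (contDiff_snd.prodMk contDiff_const)
  have hcj : JC (fun (_ : X) (z : E2 × E2) => ((z.1, (z.2, 1)) : E2 × (E2 × ℝ))) univ :=
    JC.of_contDiff hc isOpen_univ
  have hG1 := h1.comp hcj
  have hG : JC (fun (x : X) (z : E2 × E2) => (g x (z.1, (z.2, 1))).2)
      {p | (p.1, ((p.2.1, (p.2.2, 1)) : E2 × (E2 × ℝ))) ∈ T} :=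
    hG1.snd.mono (h1.isOpen.preimage (by fun_prop)) fun p hp => ⟨mem_univ _, hp⟩
  set W : Set (X × (E2 × E2)) := {p | (p.1, ((p.2.1, (p.2.2, 1)) : E2 × (E2 × ℝ))) ∈ T} with hW
  have hWo : IsOpen W := hG.isOpen
  -- positivity
  have hal_c : ContinuousOn (fun p : X × (E2 × E2) =>
      al I p.1 p.2.1 (g p.1 (p.2.1, (p.2.2, 1))).2) (W ∩ {p | p.2.1 ∈ ball (0 : E2) 3}) := by
    have e1 : ContinuousOn (fun p : X × (E2 × E2) => (g p.1 (p.2.1, (p.2.2, 1))).2)
        (W ∩ {p | p.2.1 ∈ ball (0 : E2) 3}) := hG.continuousOn.mono inter_subset_left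
    have e2 : ContinuousOn (fun p : X × (E2 × E2) => al I p.1 p.2.1)
        (W ∩ {p | p.2.1 ∈ ball (0 : E2) 3}) :=
      (al_jc I).continuousOn.comp (f := fun p : X × (E2 × E2) => ((p.1, p.2.1) : X × E2))
        (by fun_prop) fun p hp => ⟨mem_univ _, mem3 I hp.2⟩
    exact e2.clm_apply e1
  have hWo2 : IsOpen (W ∩ {p | p.2.1 ∈ ball (0 : E2) 3}) :=
    hWo.inter (isOpen_ball.preimage (by fun_prop))
  have hTo := hal_c.isOpen_inter_preimage hWo2 (isOpen_Ioi (a := (0 : ℝ)))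
  refine ⟨_, fun x z => (g x (z.1, (z.2, 1))).2, hG.mono hTo fun p hp => hp.1.1,
    ⟨⟨h2, hq⟩, ?_⟩, ?_⟩
  · change 0 < al I x₀ q₀ (g x₀ (q₀, (P₀, 1))).2
    rw [h3]
    exact hal
  · rintro ⟨x, q, P⟩ ⟨⟨hp1, hp2⟩, hp3⟩
    have hp3' : 0 < al I x q (g x (q, (P, 1))).2 := hp3
    obtain ⟨-, h8⟩ := h4 _ hp1
    have h8' : Ff I x (g x (q, (P, 1))) = (q, (P, 1)) := h8
    have h9 : (g x (q, (P, 1))).1 = q := congrArg (fun z : E2 × (E2 × ℝ) => z.1) h8'
    have h10 : mo I x (g x (q, (P, 1))).1 (g x (q, (P, 1))).2 = P :=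
      congrArg (fun z : E2 × (E2 × ℝ) => z.2.1) h8'
    have h11 : I.G (disc I x (g x (q, (P, 1))).1) (g x (q, (P, 1))).2 (g x (q, (P, 1))).2 = 1 :=
      congrArg (fun z : E2 × (E2 × ℝ) => z.2.2) h8'
    rw [h9] at h10 h11
    exact vP_eq I hp2 h11 hp3' h10

theorem isOpen_OmP : IsOpen (OmP I) := by
  rw [isOpen_iff_mem_nhds]
  rintro ⟨x, z⟩ hp
  obtain ⟨T, G, h1, h2, h3⟩ := vP_local I hp
  filter_upwards [h1.isOpen.mem_nhds h2] with p hp' using (h3 p hp').1

/-- **the direction depends smoothly on the momentum** -/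
theorem vP_jc : JC (vP I) (OmP I) := by
  refine JC.of_local (isOpen_OmP I) ?_
  rintro ⟨x, z⟩ hp
  obtain ⟨T, G, h1, h2, h3⟩ := vP_local I hp
  exact ⟨T, h2, h1.congr fun p hp' => (h3 p hp').2⟩

theorem G_vP (x : X) (z : E2 × E2) : I.G (disc I x z.1) (vP I x z) (vP I x z) = 1 :=
  I.G_vel H459.invThm _ _

theorem al_vP {x : X} {z : E2 × E2} (h : (x, z) ∈ OmP I) : 0 < al I x z.1 (vP I x z) :=
  (nu_pos_iff I x _ (mem3 I h.1)).1 (lbP_spec I h).1

theorem mo_vP {x : X} {z : E2 × E2} (h : (x, z) ∈ OmP I) : mo I x z.1 (vP I x z) = z.2 := by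
  rw [vP, mo_vel I x _ (mem3 I h.1)]
  exact (lbP_spec I h).2

/-- the label is a continuous function of the covector -/
theorem lbP_cont : ContinuousOn (fun p : X × (E2 × E2) => lbP I p.1 p.2) (OmP I) := by
  have h1 : ContinuousOn (fun p : X × (E2 × E2) => (disc I p.1 p.2.1, vP I p.1 p.2)) (OmP I) := by
    refine ContinuousOn.prodMk ?_ (vP_jc I).continuousOn
    exact (disc_jc I).continuousOn.comp
      (f := fun p : X × (E2 × E2) => ((p.1, p.2.1) : X × E2)) (by fun_prop)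
      fun p hp => ⟨mem_univ _, mem3 I hp.1⟩
  have h2 := I.xi_contOn.comp h1 fun p _ => G_vP I p.1 p.2
  refine h2.congr fun p _ => ?_
  exact (I.xi_vel (lbP I p.1 p.2) (disc I p.1 p.2.1)).symm

end Vale.Agent.P207.N4.H248
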