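import Vale.Agent.P207.N4.H248.DTrA

/-!
# P207: the Darboux transition, part B: crossings with a second disc

`Hc I (x, y) ((q, P), (s, q'))` : the point at time `s` of the geodesic through the point `q` of
the disc of `x` with momentum `P`, minus the point `q'` of the disc of `y`.
-/

set_option linter.unusedSectionVars false

open Set Filter Topology Metric
open scoped ContDiff

noncomputable section

namespace Vale.Agent.P207.N4.H248

open Vale.Agent.P207.N3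

open Vale.Agent.P207.N4.H722
open Vale.Agent.P207.N4.H862

variable [Dim] {Γ X B : Type} [Group Γ] [MetricSpace X] [ProperSpace X] [MulAction Γ X]
  [IsIsometricSMul Γ X] [TopologicalSpace B] [CompactSpace B] [T2Space B] [MulAction Γ B]
  [ContinuousConstSMul Γ B] {L : Leaf Γ X B} {V : Type} [NormedAddCommGroup V] [NormedSpace ℝ V]
  [FiniteDimensional ℝ V] (I : GeoIn L V)

/-! ### the geodesic flow -/

theorem gf_vel (ξ : B) (q : V) (s : ℝ) : I.gf (q, I.vel ξ q, s) = I.S.psi ξ s q := by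
  obtain ⟨x, rfl, rfl, -⟩ := I.exists_frame ξ q
  rw [I.vel_eq H459.invThm, ← I.gf_ft, I.ft_φ]

theorem b_psi (ξ : B) (q : V) (s : ℝ) : I.b ξ (I.S.psi ξ s q) = I.b ξ q + s := by
  obtain ⟨x, rfl, rfl, -⟩ := I.exists_frame ξ q
  have h := I.b_lv (L.φ s x)
  rw [L.em_φ, I.ft_φ, L.lv_φ] at h
  rw [h, I.b_lv]

theorem en_iff (x y : X) (ξ : B) (q q' : E2) :
    en I y ξ q' = en I x ξ q ↔ ∃ s, I.S.psi ξ s (disc I x q) = disc I y q' := by
  unfold en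
  rw [eq_comm, I.S.line_iff]
  exact exists_congr fun s => eq_comm

/-- the flow from the vector of the covector `z` -/
def gP (x : X) (z : E2 × E2) (s : ℝ) : V := I.gf (disc I x z.1, vP I x z, s)

theorem gP_eq (x : X) (z : E2 × E2) (s : ℝ) :
    gP I x z s = I.S.psi (lbP I x z) s (disc I x z.1) := gf_vel I _ _ _

/-- the equation of the crossing -/
def Hc (z : X × X) (w : (E2 × E2) × (ℝ × E2)) : (E2 × E2) × V :=
  (w.1, gP I z.1 w.1 w.2.1 - disc I z.2 w.2.2)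

/-- the domain of `Hc` -/
def HcD : Set ((X × X) × ((E2 × E2) × (ℝ × E2))) :=
  {p | (p.1.1, p.2.1) ∈ OmP I ∧ p.2.2.2 ∈ ball (0 : E2) 3}

theorem isOpen_HcD : IsOpen (HcD I) :=
  ((isOpen_OmP I).preimage (by fun_prop)).inter (isOpen_ball.preimage (by fun_prop))

theorem Hc_jc : JC (Hc I) (HcD I) := by
  have hO := isOpen_HcD I
  have h1 : JC (fun (_ : X × X) (w : (E2 × E2) × (ℝ × E2)) => w.1) (HcD I) :=
    JC.of_contDiff contDiff_fst hO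
  have h2 : JC (fun (z : X × X) (w : (E2 × E2) × (ℝ × E2)) => vP I z.1 w.1) (HcD I) := by
    have e1 : JC (fun (z : X × X) (w : E2 × E2) => vP I z.1 w) {p | (p.1.1, p.2) ∈ OmP I} :=
      (vP_jc I).pullback continuous_fst
    exact e1.comp' h1 fun p hp => hp.1
  have h3 : JC (fun (z : X × X) (w : (E2 × E2) × (ℝ × E2)) => disc I z.1 w.1.1) (HcD I) := by
    have e1 : JC (fun (z : X × X) (w : E2) => disc I z.1 w) {p | (p.1.1, p.2) ∈
        ((univ : Set X) ×ˢ ball (0 : E2) I.S.R)} := (disc_jc I).pullback continuous_fst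
    exact e1.comp' h1.fst fun p hp => ⟨mem_univ _, mem3 I hp.1.1⟩
  have h4 : JC (fun (z : X × X) (w : (E2 × E2) × (ℝ × E2)) => disc I z.2 w.2.2) (HcD I) := by
    have e1 : JC (fun (z : X × X) (w : E2) => disc I z.2 w) {p | (p.1.2, p.2) ∈
        ((univ : Set X) ×ˢ ball (0 : E2) I.S.R)} := (disc_jc I).pullback continuous_snd
    have e2 : JC (fun (_ : X × X) (w : (E2 × E2) × (ℝ × E2)) => w.2.2) (HcD I) :=
      JC.of_contDiff (contDiff_snd.comp contDiff_snd) hO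
    exact e1.comp' e2 fun p hp => ⟨mem_univ _, mem3 I hp.2⟩
  have h5 : JC (fun (_ : X × X) (w : (E2 × E2) × (ℝ × E2)) => w.2.1) (HcD I) :=
    JC.of_contDiff (contDiff_fst.comp contDiff_snd) hO
  exact h1.prodMk (((h3.prodMk (h2.prodMk h5)).comp_contDiff I.gf_smooth).sub h4)

theorem hasFDerivAt_gP (x : X) (z : E2 × E2) (r : ℝ × E2) :
    HasFDerivAt (fun r : ℝ × E2 => gP I x z r.1)
      ((ContinuousLinearMap.fst ℝ ℝ E2).smulRight
        (I.vel (lbP I x z) (gP I x z r.1))) r := by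
  have h1 := I.S.hasDerivAt_psi H459.invThm (lbP I x z) r.1 (disc I x z.1)
  have h2 : HasDerivAt (fun t => gP I x z t) (I.vel (lbP I x z) (gP I x z r.1)) r.1 := by
    rw [gP_eq]
    refine h1.congr_of_eventuallyEq (Eventually.of_forall fun t => ?_)
    exact gP_eq I x z t
  have h3 := h2.hasFDerivAt.comp r (f := fun r : ℝ × E2 => r.1) hasFDerivAt_fst
  refine h3.congr_fderiv ?_
  refine ContinuousLinearMap.ext fun v => ?_
  simp

theorem Hc_D1 {z : X × X} {w : (E2 × E2) × (ℝ × E2)}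
    {D : (E2 × E2) × (ℝ × E2) →L[ℝ] (E2 × E2) × V} (hd : HasFDerivAt (Hc I z) D w)
    (u : (E2 × E2) × (ℝ × E2)) : (D u).1 = u.1 := by
  have e1 : HasFDerivAt (fun p => (Hc I z p).1)
      ((ContinuousLinearMap.fst ℝ (E2 × E2) V).comp D) w := hasFDerivAt_fst.comp w hd
  have e2 : HasFDerivAt (fun p => (Hc I z p).1)
      (ContinuousLinearMap.fst ℝ (E2 × E2) (ℝ × E2)) w := hasFDerivAt_fst
  exact DFunLike.congr_fun (e1.unique e2) u

theorem Hc_D2 {z : X × X} {w : (E2 × E2) × (ℝ × E2)}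
    {D : (E2 × E2) × (ℝ × E2) →L[ℝ] (E2 × E2) × V} (hd : HasFDerivAt (Hc I z) D w)
    (hq : w.2.2 ∈ ball (0 : E2) I.S.R) (r : ℝ × E2) :
    D (0, r) = (0, r.1 • I.vel (lbP I z.1 w.1) (gP I z.1 w.1 w.2.1) - tg I z.2 w.2.2 r.2) := by
  have e1 : HasFDerivAt (fun r : ℝ × E2 => ((w.1, r) : (E2 × E2) × (ℝ × E2)))
      (ContinuousLinearMap.inr ℝ (E2 × E2) (ℝ × E2)) w.2 := hasFDerivAt_prodMk_right w.1 w.2
  have e2 : HasFDerivAt (fun r : ℝ × E2 => Hc I z (w.1, r))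
      (D.comp (ContinuousLinearMap.inr ℝ (E2 × E2) (ℝ × E2))) w.2 :=
    HasFDerivAt.comp w.2 (show HasFDerivAt (Hc I z) D (w.1, w.2) from hd) e1
  have e3 : HasFDerivAt (fun r : ℝ × E2 => disc I z.2 r.2)
      ((tg I z.2 w.2.2).comp (ContinuousLinearMap.snd ℝ ℝ E2)) w.2 :=
    (hasFDerivAt_disc I z.2 hq).comp w.2 hasFDerivAt_snd
  have e4 : HasFDerivAt (fun r : ℝ × E2 => Hc I z (w.1, r))
      ((0 : ℝ × E2 →L[ℝ] E2 × E2).prod ((ContinuousLinearMap.fst ℝ ℝ E2).smulRight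
        (I.vel (lbP I z.1 w.1) (gP I z.1 w.1 w.2.1)) -
        (tg I z.2 w.2.2).comp (ContinuousLinearMap.snd ℝ ℝ E2))) w.2 :=
    (hasFDerivAt_const w.1 w.2).prodMk ((hasFDerivAt_gP I z.1 w.1 w.2).sub e3)
  exact DFunLike.congr_fun (e2.unique e4) r

theorem Hc_Dinj {z : X × X} {w : (E2 × E2) × (ℝ × E2)}
    {D : (E2 × E2) × (ℝ × E2) →L[ℝ] (E2 × E2) × V} (hd : HasFDerivAt (Hc I z) D w)
    (hq : w.2.2 ∈ ball (0 : E2) I.S.R)
    (hn : al I z.2 w.2.2 (I.vel (lbP I z.1 w.1) (gP I z.1 w.1 w.2.1)) ≠ 0) :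
    Function.Injective D := by
  rw [injective_iff_map_eq_zero]
  rintro ⟨a, r⟩ h
  have h1 : a = 0 := by
    have e := Hc_D1 I hd (a, r)
    rw [h] at e
    exact e.symm
  subst h1
  have h2 := Hc_D2 I hd hq r
  rw [h] at h2
  have h3 : r.1 • I.vel (lbP I z.1 w.1) (gP I z.1 w.1 w.2.1) - tg I z.2 w.2.2 r.2 = 0 :=
    (congrArg (fun u : (E2 × E2) × V => u.2) h2).symm
  have h4 := congrArg (al I z.2 w.2.2) h3
  rw [map_sub, map_smul, al_tg I _ hq, sub_zero, map_zero, smul_eq_mul] at h4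
  have h5 : r.1 = 0 := by
    rcases mul_eq_zero.1 h4 with h5 | h5
    · exact h5
    · exact absurd h5 hn
  rw [h5, zero_smul, zero_sub, neg_eq_zero] at h3
  have h6 := tg_inj I _ hq h3
  have h7 : r = 0 := Prod.ext h5 h6
  rw [h7]
  rfl

include I in
theorem finrank_Hc (x : X) :
    Module.finrank ℝ ((E2 × E2) × (ℝ × E2)) = Module.finrank ℝ ((E2 × E2) × V) := by
  rw [Module.finrank_prod, Module.finrank_prod (M := E2 × E2) (M' := V), finrank_V' I x]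

theorem Hc_hd {p : (X × X) × ((E2 × E2) × (ℝ × E2))} (hp : p ∈ HcD I) :
    HasFDerivAt (Hc I p.1) (fderiv ℝ (Hc I p.1) p.2) p.2 := (Hc_jc I).hasFDerivAt hp

theorem Hc_inv {p : (X × X) × ((E2 × E2) × (ℝ × E2))} (hp : p ∈ HcD I)
    (hn : al I p.1.2 p.2.2.2 (I.vel (lbP I p.1.1 p.2.1) (gP I p.1.1 p.2.1 p.2.2.1)) ≠ 0) :
    (fderiv ℝ (Hc I p.1) p.2).IsInvertible := by
  have h1 := Hc_Dinj I (Hc_hd I hp) (mem3 I hp.2) hn
  have h2 := finrank_Hc I p.1.1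
  exact inv_of_inj h2 _ h1

/-- `(s, q')` is a crossing of the geodesic of the covector `z` of the disc of `x` with the disc
of `y` -/
def Cr (x y : X) (z : E2 × E2) (r : ℝ × E2) : Prop :=
  r.2 ∈ ball (0 : E2) 3 ∧ gP I x z r.1 = disc I y r.2

theorem Cr.time {x y : X} {z : E2 × E2} {r : ℝ × E2} (h : Cr I x y z r) :
    r.1 = I.b (lbP I x z) (disc I y r.2) - I.b (lbP I x z) (disc I x z.1) := by
  rw [← h.2, gP_eq, b_psi]
  ring

theorem Cr.en {x y : X} {z : E2 × E2} {r : ℝ × E2} (h : Cr I x y z r) :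
    en I y (lbP I x z) r.2 = en I x (lbP I x z) z.1 :=
  (en_iff I _ _ _ _ _).2 ⟨r.1, by rw [← gP_eq]; exact h.2⟩

theorem exists_Cr {x y : X} {z : E2 × E2} {q' : E2} (hq : q' ∈ ball (0 : E2) 3)
    (h : H862.en I y (lbP I x z) q' = H862.en I x (lbP I x z) z.1) : ∃ s, Cr I x y z (s, q') := by
  obtain ⟨s, hs⟩ := (en_iff I _ _ _ _ _).1 h
  exact ⟨s, hq, by rw [gP_eq]; exact hs⟩

theorem nu_contOn {Z : Type} [TopologicalSpace Z] {S : Set Z} {y : Z → X} {ξ : Z → B}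
    {q : Z → E2} (hy : ContinuousOn y S) (hξ : ContinuousOn ξ S) (hq : ContinuousOn q S)
    (h : ∀ z ∈ S, q z ∈ ball (0 : E2) 3) :
    ContinuousOn (fun z => nu I (y z) (ξ z) (q z)) S :=
  (nu_cont I).comp (f := fun z => (((y z, ξ z), q z) : (X × B) × E2))
    ((hy.prodMk hξ).prodMk hq) fun z hz => ⟨mem_univ _, h z hz⟩

theorem lbP_contOn {Z : Type} [TopologicalSpace Z] {S : Set Z} {x : Z → X} {w : Z → E2 × E2}
    (hx : ContinuousOn x S) (hw : ContinuousOn w S) (h : ∀ z ∈ S, (x z, w z) ∈ OmP I) :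
    ContinuousOn (fun z => lbP I (x z) (w z)) S :=
  (lbP_cont I).comp (f := fun z => ((x z, w z) : X × (E2 × E2))) (hx.prodMk hw) h

theorem Hc_eq {x y : X} {z : E2 × E2} {r : ℝ × E2} (h : Cr I x y z r) :
    Hc I (x, y) (z, r) = (z, 0) := by
  change (z, gP I x z r.1 - disc I y r.2) = _
  rw [show gP I x z r.1 = disc I y r.2 from h.2, sub_self]

theorem Hc_sol {x y : X} {z : E2 × E2} {u : (E2 × E2) × (ℝ × E2)}
    (h : Hc I (x, y) u = (z, 0)) (hu : ((x, y), u) ∈ HcD I) :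
    u.1 = z ∧ (x, z) ∈ OmP I ∧ Cr I x y z u.2 := by
  have h10 : u.1 = z := congrArg (fun u : (E2 × E2) × V => u.1) h
  have h11 : gP I x u.1 u.2.1 - disc I y u.2.2 = 0 := congrArg (fun u : (E2 × E2) × V => u.2) h
  have h8 : (x, u.1) ∈ OmP I ∧ u.2.2 ∈ ball (0 : E2) 3 := hu
  rw [h10] at h11 h8
  exact ⟨h10, h8.1, h8.2, sub_eq_zero.1 h11⟩

/-- the local form of the crossings, without the side -/
theorem tr_local₀ {x₀ y₀ : X} {z₀ : E2 × E2} {r₀ : ℝ × E2} (h : (x₀, z₀) ∈ OmP I)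
    (hc : Cr I x₀ y₀ z₀ r₀) (hn : 0 < nu I y₀ (lbP I x₀ z₀) r₀.2) :
    ∃ (T : Set ((X × X) × (E2 × E2))) (G : X × X → E2 × E2 → ℝ × E2), JC G T ∧
      ((x₀, y₀), z₀) ∈ T ∧ G (x₀, y₀) z₀ = r₀ ∧
      (∀ p ∈ T, (p.1.1, p.2) ∈ OmP I ∧ Cr I p.1.1 p.1.2 p.2 (G p.1 p.2)) ∧
      ∃ O : Set ((X × X) × ((E2 × E2) × (ℝ × E2))), IsOpen O ∧ ((x₀, y₀), (z₀, r₀)) ∈ O ∧
        ∀ p ∈ O, Cr I p.1.1 p.1.2 p.2.1 p.2.2 → p.2.2 = G p.1 p.2.1 := by
  have hmem : (((x₀, y₀), (z₀, r₀)) : (X × X) × ((E2 × E2) × (ℝ × E2))) ∈ HcD I := ⟨h, hc.1⟩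
  have hal : 0 < al I y₀ r₀.2 (I.vel (lbP I x₀ z₀) (gP I x₀ z₀ r₀.1)) := by
    rw [hc.2]
    exact (nu_pos_iff I y₀ _ (mem3 I hc.1)).1 hn
  have hinv := Hc_inv I hmem hal.ne'
  obtain ⟨T, g, h1, h2, h3, h4, -, O, hO, h6, h7⟩ := (Hc_jc I).inverse_local hmem hinv
  rw [Hc_eq I hc] at h2 h3
  have hcj : JC (fun (_ : X × X) (z : E2 × E2) => ((z, 0) : (E2 × E2) × V)) univ :=
    JC.of_contDiff (contDiff_id.prodMk contDiff_const) isOpen_univ
  have hWo : IsOpen {p : (X × X) × (E2 × E2) | (p.1, ((p.2, 0) : (E2 × E2) × V)) ∈ T} :=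
    h1.isOpen.preimage (by fun_prop)
  have hG := (h1.comp' (hcj.mono hWo (subset_univ _)) fun p hp => hp).snd
  refine ⟨_, fun x z => (g x (z, 0)).2, hG, h2, congrArg Prod.snd h3, ?_, O, hO, h6, ?_⟩
  · rintro ⟨⟨x, y⟩, z⟩ hp
    obtain ⟨h8, h9⟩ := h4 _ hp
    obtain ⟨-, h10, h11⟩ := Hc_sol I h9 h8
    exact ⟨h10, h11⟩
  · rintro ⟨⟨x, y⟩, ⟨z, r⟩⟩ hp1 hcr
    obtain ⟨-, h8⟩ := h7 _ hp1
    have h9 : g (x, y) (Hc I (x, y) (z, r)) = (z, r) := h8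
    rw [Hc_eq I hcr] at h9
    change r = (g (x, y) (z, 0)).2
    rw [h9]

/-- the local form of the crossings -/
theorem tr_local {x₀ y₀ : X} {z₀ : E2 × E2} {r₀ : ℝ × E2} (h : (x₀, z₀) ∈ OmP I)
    (hc : Cr I x₀ y₀ z₀ r₀) (hn : 0 < nu I y₀ (lbP I x₀ z₀) r₀.2) :
    ∃ (T : Set ((X × X) × (E2 × E2))) (G : X × X → E2 × E2 → ℝ × E2), JC G T ∧
      ((x₀, y₀), z₀) ∈ T ∧ G (x₀, y₀) z₀ = r₀ ∧
      (∀ p ∈ T, (p.1.1, p.2) ∈ OmP I ∧ Cr I p.1.1 p.1.2 p.2 (G p.1 p.2) ∧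
        0 < nu I p.1.2 (lbP I p.1.1 p.2) (G p.1 p.2).2) ∧
      ∃ O : Set ((X × X) × ((E2 × E2) × (ℝ × E2))), IsOpen O ∧ ((x₀, y₀), (z₀, r₀)) ∈ O ∧
        ∀ p ∈ O, Cr I p.1.1 p.1.2 p.2.1 p.2.2 → p.2.2 = G p.1 p.2.1 := by
  obtain ⟨W, G, h1, h2, h3, h4, h5⟩ := tr_local₀ I h hc hn
  have hv : ContinuousOn (fun p : (X × X) × (E2 × E2) => nu I p.1.2 (lbP I p.1.1 p.2)
      (G p.1 p.2).2) W := by
    refine nu_contOn I (by fun_prop) ?_ h1.snd.continuousOn fun p hp => (h4 p hp).2.1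
    exact lbP_contOn I (by fun_prop) (by fun_prop) fun p hp => (h4 p hp).1
  have hTo := hv.isOpen_inter_preimage h1.isOpen (isOpen_Ioi (a := (0 : ℝ)))
  refine ⟨_, G, h1.mono hTo inter_subset_left, ⟨h2, ?_⟩, h3,
    fun p hp => ⟨(h4 p hp.1).1, (h4 p hp.1).2, hp.2⟩, h5⟩
  change 0 < nu I y₀ (lbP I x₀ z₀) (G (x₀, y₀) z₀).2
  rw [h3]
  exact hn

end Vale.Agent.P207.N4.H248
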