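import Vale.Agent.P207.N4.H248.DTrB

/-!
# P207: the Darboux transition, part C: time, position and momentum on the second disc

`OmT I` : the covectors of the disc of `x` whose geodesic meets the disc of `y` exactly once, and
positively (locally uniformly); `RT` = (time, position), `PT` = momentum of the crossing.
-/

set_option linter.unusedSectionVars false

open Set Filter Topology Metric
open scoped ContDiff

noncomputable section

namespace Vale.Agent.P207.N4.H248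

open Vale.Agent.P207.N3

open Vale.Agent.P207.N4.H722
open Vale.Agent.P207.N4.H862

variable [Dim] {Γ X B : Type} [Group Γ] [MetricSpace X] [ProperSpace X] [MulAction Γ X]
  [IsIsometricSMul Γ X] [TopologicalSpace B] [CompactSpace B] [T2Space B] [MulAction Γ B]
  [ContinuousConstSMul Γ B] {L : Leaf Γ X B} {V : Type} [NormedAddCommGroup V] [NormedSpace ℝ V]
  [FiniteDimensional ℝ V] (I : GeoIn L V)

/-- the domain of the transition -/
def OmT : Set ((X × X) × (E2 × E2)) :=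
  {p | ∃ (T : Set ((X × X) × (E2 × E2))) (G : X × X → E2 × E2 → ℝ × E2), JC G T ∧ p ∈ T ∧
    ∀ p' ∈ T, (p'.1.1, p'.2) ∈ OmP I ∧ Cr I p'.1.1 p'.1.2 p'.2 (G p'.1 p'.2) ∧
      0 < nu I p'.1.2 (lbP I p'.1.1 p'.2) (G p'.1 p'.2).2 ∧
      ∀ r, Cr I p'.1.1 p'.1.2 p'.2 r → r = G p'.1 p'.2}

open Classical in
/-- time and position of the crossing -/
def RT (z : X × X) (w : E2 × E2) : ℝ × E2 :=
  if h : ∃ r, Cr I z.1 z.2 w r then h.choose else 0

theorem RT_eq {z : X × X} {w : E2 × E2} {r : ℝ × E2} (h : Cr I z.1 z.2 w r)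
    (hu : ∀ r', Cr I z.1 z.2 w r' → r' = r) : RT I z w = r := by
  have h1 : ∃ r, Cr I z.1 z.2 w r := ⟨r, h⟩
  rw [RT, dif_pos h1]
  exact hu _ h1.choose_spec

theorem OmT_local {p : (X × X) × (E2 × E2)} (hp : p ∈ OmT I) :
    ∃ (T : Set ((X × X) × (E2 × E2))) (G : X × X → E2 × E2 → ℝ × E2), JC G T ∧ p ∈ T ∧
      ∀ p' ∈ T, p' ∈ OmT I ∧ RT I p'.1 p'.2 = G p'.1 p'.2 := by
  obtain ⟨T, G, h1, h2, h3⟩ := hp
  refine ⟨T, G, h1, h2, fun p' hp' => ⟨⟨T, G, h1, hp', h3⟩, ?_⟩⟩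
  obtain ⟨-, h4, -, h5⟩ := h3 p' hp'
  exact RT_eq I h4 h5

theorem OmT_spec {p : (X × X) × (E2 × E2)} (hp : p ∈ OmT I) :
    (p.1.1, p.2) ∈ OmP I ∧ Cr I p.1.1 p.1.2 p.2 (RT I p.1 p.2) ∧
      0 < nu I p.1.2 (lbP I p.1.1 p.2) (RT I p.1 p.2).2 ∧
      ∀ r, Cr I p.1.1 p.1.2 p.2 r → r = RT I p.1 p.2 := by
  obtain ⟨T, G, h1, h2, h3⟩ := hp
  obtain ⟨h6, h4, h7, h5⟩ := h3 p h2
  rw [RT_eq I h4 h5]
  exact ⟨h6, h4, h7, h5⟩

theorem isOpen_OmT : IsOpen (OmT I) := by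
  rw [isOpen_iff_mem_nhds]
  intro p hp
  obtain ⟨T, G, h1, h2, h3⟩ := OmT_local I hp
  filter_upwards [h1.isOpen.mem_nhds h2] with p' hp' using (h3 p' hp').1

/-- **time and position of the crossing are smooth** -/
theorem RT_jc : JC (RT I) (OmT I) := by
  refine JC.of_local (isOpen_OmT I) fun p hp => ?_
  obtain ⟨T, G, h1, h2, h3⟩ := OmT_local I hp
  exact ⟨T, h2, h1.congr fun p' hp' => (h3 p' hp').2⟩

/-- the momentum of the crossing -/
def PT (z : X × X) (w : E2 × E2) : E2 :=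
  gradient (be I z.2 (lbP I z.1 w)) (RT I z w).2

theorem mo_jc {Z E : Type} [TopologicalSpace Z] [NormedAddCommGroup E] [NormedSpace ℝ E]
    {S : Set (Z × E)} {y : Z → X} (hy : Continuous y) {q : Z → E → E2} {v : Z → E → V}
    (hq : JC q S) (hv : JC v S) (h : ∀ p ∈ S, q p.1 p.2 ∈ ball (0 : E2) I.S.R) :
    JC (fun z u => mo I (y z) (q z u) (v z u)) S := by
  have h3 : JC (fun z u => I.G (disc I (y z) (q z u))) S :=
    ((G_jc I).pullback hy).comp' hq fun p hp => ⟨mem_univ _, h p hp⟩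
  have h4 : JC (fun z u => tg I (y z) (q z u)) S :=
    ((tg_jc I).pullback hy).comp' hq fun p hp => ⟨mem_univ _, h p hp⟩
  exact ((h3.clm_apply hv).clm_comp h4).clm cvv

/-- the velocity at the crossing -/
def vT (z : X × X) (w : E2 × E2) : V :=
  fderiv ℝ I.gf (disc I z.1 w.1, vP I z.1 w, (RT I z w).1) (0, 0, 1)

theorem vT_eq {z : X × X} {w : E2 × E2} (h : (z, w) ∈ OmT I) :
    vT I z w = I.vel (lbP I z.1 w) (disc I z.2 (RT I z w).2) := by
  obtain ⟨-, h1, -, -⟩ := OmT_spec I h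
  have h2 : HasDerivAt (fun t => gP I z.1 w t) (I.vel (lbP I z.1 w) (gP I z.1 w (RT I z w).1))
      (RT I z w).1 := by
    have e1 := I.S.hasDerivAt_psi H459.invThm (lbP I z.1 w) (RT I z w).1 (disc I z.1 w.1)
    rw [gP_eq]
    exact e1.congr_of_eventuallyEq (Eventually.of_forall fun t => gP_eq I z.1 w t)
  have h3 : HasFDerivAt I.gf (fderiv ℝ I.gf (disc I z.1 w.1, vP I z.1 w, (RT I z w).1))
      (disc I z.1 w.1, vP I z.1 w, (RT I z w).1) :=
    (I.gf_smooth.differentiable (by simp)).differentiableAt.hasFDerivAt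
  have h4 : HasDerivAt (fun t : ℝ => ((disc I z.1 w.1, vP I z.1 w, t) : V × V × ℝ)) (0, 0, 1)
      (RT I z w).1 :=
    (hasDerivAt_const _ _).prodMk ((hasDerivAt_const _ _).prodMk (hasDerivAt_id _))
  have h5 := h3.comp_hasDerivAt (RT I z w).1 h4
  have h6 : vT I z w = I.vel (lbP I z.1 w) (gP I z.1 w (RT I z w).1) := h5.unique h2
  rw [h6, show gP I z.1 w (RT I z w).1 = disc I z.2 (RT I z w).2 from h1.2]

theorem vT_jc : JC (vT I) (OmT I) := by
  have hO := isOpen_OmT I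
  have h1 : JC (fun (_ : X × X) (w : E2 × E2) => w) (OmT I) := JC.id hO
  have h2 : JC (fun (z : X × X) (w : E2 × E2) => vP I z.1 w) (OmT I) :=
    ((vP_jc I).pullback continuous_fst).comp' h1 fun p hp => (OmT_spec I hp).1
  have h3 : JC (fun (z : X × X) (w : E2 × E2) => disc I z.1 w.1) (OmT I) :=
    ((disc_jc I).pullback continuous_fst).comp' h1.fst fun p hp =>
      ⟨mem_univ _, mem3 I (OmT_spec I hp).1.1⟩
  have h4 : JC (fun (z : X × X) (w : E2 × E2) =>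
      ((disc I z.1 w.1, vP I z.1 w, (RT I z w).1) : V × V × ℝ)) (OmT I) :=
    h3.prodMk (h2.prodMk (RT_jc I).fst)
  have h5 : ContDiff ℝ ∞ (fderiv ℝ I.gf) := I.gf_smooth.fderiv_right (by simp)
  exact (h4.comp_contDiff h5).clm_apply (JC.const hO _)

/-- **the momentum of the crossing is smooth** -/
theorem PT_jc : JC (PT I) (OmT I) := by
  have h := mo_jc I (y := fun z : X × X => z.2) continuous_snd (RT_jc I).snd (vT_jc I)
    fun p hp => mem3 I (OmT_spec I hp).2.1.1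
  refine h.congr fun p hp => ?_
  change gradient _ _ = _
  rw [vT_eq I hp, mo_vel I _ _ (mem3 I (OmT_spec I hp).2.1.1)]

/-! ### the zero section -/

theorem nu_em_pos (x : X) {q : E2} (hq : q ∈ ball (0 : E2) 3) : 0 < nu I x (L.em x) q := by
  rw [nu_pos_iff I x _ (mem3 I hq), al_vel I x (mem3 I hq)]
  exact one_pos

/-- the momentum of the direction from `em x` -/
def g0 (x : X) (q : E2) : E2 := gradient (be I x (L.em x)) q

theorem lbP_g0 (x : X) {q : E2} (hq : q ∈ ball (0 : E2) 3) : lbP I x (q, g0 I x q) = L.em x :=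
  lbP_eq I hq (nu_em_pos I x hq)

theorem g0_mem (x : X) {q : E2} (hq : q ∈ ball (0 : E2) 3) : (x, (q, g0 I x q)) ∈ OmP I :=
  mem_OmP I hq (nu_em_pos I x hq)

theorem cont_disc {Z : Type} [TopologicalSpace Z] {x : Z → X} {q : Z → E2} {z₀ : Z}
    (hx : ContinuousAt x z₀) (hq : ContinuousAt q z₀) (h : q z₀ ∈ ball (0 : E2) I.S.R) :
    ContinuousAt (fun z => disc I (x z) (q z)) z₀ := by
  have h1 : ContinuousAt (fun p : X × E2 => disc I p.1 p.2) (x z₀, q z₀) :=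
    (disc_cont I).continuousAt ((isOpen_univ.prod isOpen_ball).mem_nhds ⟨mem_univ _, h⟩)
  exact ContinuousAt.comp (f := fun z => ((x z, q z) : X × E2)) h1 (hx.prodMk hq)

theorem cont_lbP {Z : Type} [TopologicalSpace Z] {x : Z → X} {w : Z → E2 × E2} {z₀ : Z}
    (hx : ContinuousAt x z₀) (hw : ContinuousAt w z₀) (h : (x z₀, w z₀) ∈ OmP I) :
    ContinuousAt (fun z => lbP I (x z) (w z)) z₀ := by
  have h1 : ContinuousAt (fun p : X × (E2 × E2) => lbP I p.1 p.2) (x z₀, w z₀) :=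
    (lbP_cont I).continuousAt ((isOpen_OmP I).mem_nhds h)
  exact ContinuousAt.comp (f := fun z => ((x z, w z) : X × (E2 × E2))) h1 (hx.prodMk hw)

theorem cont_line {Z : Type} [TopologicalSpace Z] {ξ : Z → B} {q : Z → V} {z₀ : Z}
    (hx : ContinuousAt ξ z₀) (hq : ContinuousAt q z₀) :
    ContinuousAt (fun z => I.S.line (ξ z) (q z)) z₀ :=
  ContinuousAt.comp (f := fun z => ((ξ z, q z) : B × V)) I.S.line_cont.continuousAt (hx.prodMk hq)

theorem cont_b {Z : Type} [TopologicalSpace Z] {ξ : Z → B} {q : Z → V} {z₀ : Z}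
    (hx : ContinuousAt ξ z₀) (hq : ContinuousAt q z₀) :
    ContinuousAt (fun z => I.b (ξ z) (q z)) z₀ := by
  have h1 : ContinuousAt (fun p : B × V => I.b p.1 p.2) (ξ z₀, q z₀) :=
    I.b_jc.continuousOn.continuousAt univ_mem
  exact ContinuousAt.comp (f := fun z => ((ξ z, q z) : B × V)) h1 (hx.prodMk hq)

theorem mem_OmT {x₀ y₀ : X} (he : L.em x₀ = L.em y₀) {q₀ : E2} (hq : q₀ ∈ L.dm x₀ y₀) :
    ((x₀, y₀), (q₀, g0 I x₀ q₀)) ∈ OmT I := by
  obtain ⟨hq0, q₁, hq1, hqe⟩ : q₀ ∈ ball (0 : E2) 3 ∧ L.e x₀ q₀ ∈ L.e y₀ '' ball (0 : E2) 3 := hq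
  have hl := lbP_g0 I x₀ hq0
  have hP := g0_mem I x₀ hq0
  have e1 : en I y₀ (lbP I x₀ (q₀, g0 I x₀ q₀)) q₁ =
      en I x₀ (lbP I x₀ (q₀, g0 I x₀ q₀)) q₀ := by
    rw [hl, he, ← e_eq_en I y₀ (ball_subset_closedBall hq1), hqe, ← he,
      ← e_eq_en I x₀ (ball_subset_closedBall hq0)]
  obtain ⟨s₀, hc⟩ := exists_Cr I hq1 e1
  have hn : 0 < nu I y₀ (lbP I x₀ (q₀, g0 I x₀ q₀)) q₁ := by
    rw [hl, he]
    exact nu_em_pos I y₀ hq1
  obtain ⟨T, G, h1, h2, h3, h4, O, hO, h5, h6⟩ := tr_local I hP hc hn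
  set p₀ : (X × X) × (E2 × E2) := ((x₀, y₀), (q₀, g0 I x₀ q₀)) with hp₀
  -- uniqueness near `p₀`
  have key : ∀ᶠ p in 𝓝 p₀, ∀ q' ∈ closedBall (0 : E2) 3, ∀ s, Cr I p.1.1 p.1.2 p.2 (s, q') →
      (s, q') = G p.1 p.2 := by
    refine IsCompact.eventually_forall_of_forall_eventually (isCompact_closedBall _ _)
      (P := fun (p : (X × X) × (E2 × E2)) (q' : E2) => ∀ s : ℝ, Cr I p.1.1 p.1.2 p.2 (s, q') → (s, q') = G p.1 p.2) fun q' hq' => ?_
    have c0 : ContinuousAt (fun z : ((X × X) × (E2 × E2)) × E2 => lbP I z.1.1.1 z.1.2)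
        (p₀, q') := cont_lbP I (by fun_prop) (by fun_prop) hP
    have c1 : ContinuousAt (fun z : ((X × X) × (E2 × E2)) × E2 => disc I z.1.1.1 z.1.2.1)
        (p₀, q') := cont_disc I (by fun_prop) (by fun_prop) (mem3 I hq0)
    have c2 : ContinuousAt (fun z : ((X × X) × (E2 × E2)) × E2 => disc I z.1.1.2 z.2)
        (p₀, q') := cont_disc I (by fun_prop) (by fun_prop) (I.S.mem_R hq')
    by_cases hqq : q' = q₁
    · have c3 : ContinuousAt (fun z : ((X × X) × (E2 × E2)) × E2 =>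
          I.b (lbP I z.1.1.1 z.1.2) (disc I z.1.1.2 z.2) -
            I.b (lbP I z.1.1.1 z.1.2) (disc I z.1.1.1 z.1.2.1)) (p₀, q') :=
        (cont_b I c0 c2).sub (cont_b I c0 c1)
      have c4 : ContinuousAt (fun z : ((X × X) × (E2 × E2)) × E2 =>
          ((z.1.1, (z.1.2, (I.b (lbP I z.1.1.1 z.1.2) (disc I z.1.1.2 z.2) -
            I.b (lbP I z.1.1.1 z.1.2) (disc I z.1.1.1 z.1.2.1), z.2))) :
              (X × X) × ((E2 × E2) × (ℝ × E2)))) (p₀, q') :=
        (by fun_prop : ContinuousAt (fun z : ((X × X) × (E2 × E2)) × E2 => z.1.1) (p₀, q')).prodMk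
          ((by fun_prop : ContinuousAt (fun z : ((X × X) × (E2 × E2)) × E2 => z.1.2)
            (p₀, q')).prodMk (c3.prodMk continuousAt_snd))
      have c5 := c4.eventually (hO.mem_nhds (by
        have e2 := hc.time
        rw [hqq]
        change ((x₀, y₀), ((q₀, g0 I x₀ q₀), (I.b (lbP I x₀ (q₀, g0 I x₀ q₀)) (disc I y₀ q₁) -
            I.b (lbP I x₀ (q₀, g0 I x₀ q₀)) (disc I x₀ q₀), q₁))) ∈ O
        rw [← show s₀ = _ from e2]
        exact h5))
      filter_upwards [c5] with z hz s hs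
      refine h6 (z.1.1, (z.1.2, (s, z.2))) ?_ hs
      have e3 := hs.time
      rw [show s = _ from e3]
      exact hz
    · have c3 := cont_line I c0 c2
      have c4 := cont_line I c0 c1
      have hne : I.S.line (lbP I x₀ (q₀, g0 I x₀ q₀)) (disc I y₀ q')
          ≠ I.S.line (lbP I x₀ (q₀, g0 I x₀ q₀)) (disc I x₀ q₀) := by
        intro h
        change en I y₀ _ q' = en I x₀ _ q₀ at h
        rw [← e1, hl, he, ← e_eq_en I y₀ hq', ← e_eq_en I y₀ (ball_subset_closedBall hq1)] at h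
        exact hqq (L.e_inj y₀ hq' (ball_subset_closedBall hq1) h)
      have c5 : ∀ᶠ z : ((X × X) × (E2 × E2)) × E2 in 𝓝 (p₀, q'),
          I.S.line (lbP I z.1.1.1 z.1.2) (disc I z.1.1.2 z.2) ≠
            I.S.line (lbP I z.1.1.1 z.1.2) (disc I z.1.1.1 z.1.2.1) :=
        (c3.prodMk c4).eventually (isClosed_diagonal.isOpen_compl.mem_nhds fun h => hne h)
      filter_upwards [c5] with z hz s hs
      exact absurd (Cr.en I hs) hz
  obtain ⟨U, hU, hUo, hpU⟩ := _root_.eventually_nhds_iff.1 key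
  refine ⟨T ∩ U, G, h1.mono (h1.isOpen.inter hUo) inter_subset_left, ⟨h2, hpU⟩,
    fun p' hp' => ?_⟩
  obtain ⟨h7, h8, h9⟩ := h4 p' hp'.1
  exact ⟨h7, h8, h9, fun r hr => hU p' hp'.2 r.2 (ball_subset_closedBall hr.1) r.1 hr⟩

end Vale.Agent.P207.N4.H248
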