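import Vale.Agent.P207.N4.H248.DTrC

/-!
# P207: the Darboux transition, part D: equivariance, the Darboux coordinate, the zero section
-/

set_option linter.unusedSectionVars false

open Set Filter Topology Metric
open scoped ContDiff

noncomputable section

namespace Vale.Agent.P207.N4.H248

open Vale.Agent.P207.N3

open Vale.Agent.P207.N4.H722
open Vale.Agent.P207.N4.H862

variable [Dim] {Γ X B : Type} [Group Γ] [MetricSpace X] [ProperSpace X] [MulAction Γ X]
  [IsIsometricSMul Γ X] [TopologicalSpace B] [CompactSpace B] [T2Space B] [MulAction Γ B]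
  [ContinuousConstSMul Γ B] {L : Leaf Γ X B} {V : Type} [NormedAddCommGroup V] [NormedSpace ℝ V]
  [FiniteDimensional ℝ V] {I : GeoIn L V}

/-! ### the group -/

theorem act_inj (g : Γ) {a b : V} (h : I.act g a = I.act g b) : a = b := by
  have h1 := congrArg (I.act g⁻¹) h
  rwa [← act_act, ← act_act, inv_mul_cancel, act_one, act_one] at h1

theorem be_smul' (hD : DiscX I) (g : Γ) (x : X) (ξ : B) {q : E2} (hq : q ∈ ball (0 : E2) 3) :
    be I (g • x) (g • ξ) q = be I x ξ q := by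
  obtain ⟨c, hc⟩ := I.b_act g ξ
  rw [be, be, disc_smul hD g x hq, I.act_ft, hc, hc]
  ring

theorem gradient_smul (hD : DiscX I) (g : Γ) (x : X) (ξ : B) {q : E2}
    (hq : q ∈ ball (0 : E2) 3) :
    gradient (be I (g • x) (g • ξ)) q = gradient (be I x ξ) q := by
  have h : be I (g • x) (g • ξ) =ᶠ[𝓝 q] be I x ξ := by
    filter_upwards [isOpen_ball.mem_nhds hq] with u hu using be_smul' hD g x ξ hu
  rw [gradient, gradient, h.fderiv_eq]

theorem lbP_smul (hD : DiscX I) (g : Γ) {x : X} {w : E2 × E2} (h : (x, w) ∈ OmP I) :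
    (g • x, w) ∈ OmP I ∧ lbP I (g • x) w = g • lbP I x w := by
  obtain ⟨h1, h2⟩ := lbP_spec I h
  have hq : w.1 ∈ ball (0 : E2) 3 := h.1
  have h3 : 0 < nu I (g • x) (g • lbP I x w) w.1 := by rw [nu_smul hD g x _ hq]; exact h1
  have h4 : gradient (be I (g • x) (g • lbP I x w)) w.1 = w.2 := by
    rw [gradient_smul hD g x _ hq, h2]
  refine ⟨⟨hq, _, h3, h4⟩, ?_⟩
  have h5 := lbP_eq I hq h3
  rw [h4] at h5
  exact h5

theorem gP_smul (hD : DiscX I) (g : Γ) {x : X} {w : E2 × E2} (h : (x, w) ∈ OmP I) (s : ℝ) :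
    gP I (g • x) w s = I.act g (gP I x w s) := by
  rw [gP_eq, gP_eq, (lbP_smul hD g h).2, disc_smul hD g x h.1, psi_act]

theorem Cr_smul (hD : DiscX I) (g : Γ) {x y : X} {w : E2 × E2} (h : (x, w) ∈ OmP I)
    (r : ℝ × E2) : Cr I (g • x) (g • y) w r ↔ Cr I x y w r := by
  refine and_congr_right fun hr => ?_
  rw [gP_smul hD g h, disc_smul hD g y hr]
  exact ⟨fun h => act_inj g h, fun h => congrArg _ h⟩

theorem OmT_smul (hD : DiscX I) (g : Γ) {x y : X} {w : E2 × E2} (h : ((x, y), w) ∈ OmT I) :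
    ((g • x, g • y), w) ∈ OmT I := by
  obtain ⟨T, G, h1, h2, h3⟩ := h
  set c : X × X → X × X := fun z => (g⁻¹ • z.1, g⁻¹ • z.2) with hc
  have hcc : Continuous c :=
    ((continuous_const_smul g⁻¹).comp continuous_fst).prodMk
      ((continuous_const_smul g⁻¹).comp continuous_snd)
  refine ⟨_, fun z => G (c z), h1.pullback hcc, ?_, ?_⟩
  · change (c (g • x, g • y), w) ∈ T
    rw [hc]
    simp only [inv_smul_smul]
    exact h2
  · rintro ⟨⟨x', y'⟩, w'⟩ hp
    have hp' : ((g⁻¹ • x', g⁻¹ • y'), w') ∈ T := hp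
    obtain ⟨h4, h5, h6, h7⟩ := h3 _ hp'
    have e1 : ((g • (g⁻¹ • x' : X), w') : X × (E2 × E2)) = (x', w') := by rw [smul_inv_smul]
    have h8 := lbP_smul hD g h4
    have h9 := fun r => Cr_smul hD g (y := g⁻¹ • y') h4 r
    simp only [smul_inv_smul] at h8 h9
    refine ⟨h8.1, (h9 _).2 h5, ?_, fun r hr => h7 r ((h9 r).1 hr)⟩
    have h10 := nu_smul hD g (g⁻¹ • y' : X) (lbP I (g⁻¹ • x') w') h5.1
    rw [smul_inv_smul, ← h8.2] at h10
    change 0 < nu I y' (lbP I x' w') (G (g⁻¹ • x', g⁻¹ • y') w').2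
    rw [h10]
    exact h6

theorem RT_smul (hD : DiscX I) (g : Γ) {x y : X} {w : E2 × E2} (h : ((x, y), w) ∈ OmT I) :
    RT I (g • x, g • y) w = RT I (x, y) w := by
  obtain ⟨h1, h2, -, h3⟩ := OmT_spec I h
  exact RT_eq I ((Cr_smul hD g h1 _).2 h2) fun r hr => h3 r ((Cr_smul hD g h1 r).1 hr)

theorem PT_smul (hD : DiscX I) (g : Γ) {x y : X} {w : E2 × E2} (h : ((x, y), w) ∈ OmT I) :
    PT I (g • x, g • y) w = PT I (x, y) w := by
  obtain ⟨h1, h2, -, h3⟩ := OmT_spec I h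
  rw [PT, PT, RT_smul hD g h]
  change gradient (be I (g • y) (lbP I (g • x) w)) _ = gradient (be I y (lbP I x w)) _
  rw [(lbP_smul hD g h1).2, gradient_smul hD g y _ h2.1]

/-! ### the Darboux coordinate -/

variable (I)

theorem g0_jc : JC (g0 I) (univ ×ˢ ball 0 3) := by
  have hO : IsOpen (univ ×ˢ ball (0 : E2) 3 : Set (X × E2)) := isOpen_univ.prod isOpen_ball
  have h1 : JC (fun (_ : X) (q : E2) => q) (univ ×ˢ ball 0 3) := JC.id hO
  have h2 : JC (fun (x : X) (q : E2) => disc I x q) (univ ×ˢ ball 0 3) :=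
    (disc_jc I).mono hO fun p hp => ⟨mem_univ _, mem3 I hp.2⟩
  have h3 : JC (fun (x : X) (q : E2) => I.vel (L.em x) (disc I x q)) (univ ×ˢ ball 0 3) :=
    ((I.vel_jc H459.invThm).pullback L.em_cont).comp' h2 fun _ _ => mem_univ _
  have h4 := mo_jc I (y := fun x : X => x) continuous_id h1 h3 fun p hp => mem3 I hp.2
  exact h4.congr fun p hp => (mo_vel I _ _ (mem3 I hp.2)).symm

variable {I} in
theorem g0_smul (hD : DiscX I) (g : Γ) (x : X) {q : E2} (hq : q ∈ ball (0 : E2) 3) :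
    g0 I (g • x) q = g0 I x q := by
  rw [g0, g0, L.em_smul, gradient_smul hD g x _ hq]

/-- the domain of the transition in the Darboux coordinate -/
def OmS : Set ((X × X) × (E2 × E2)) :=
  {p | p.2.1 ∈ ball (0 : E2) 3 ∧ (p.1, (p.2.1, p.2.2 + g0 I p.1.1 p.2.1)) ∈ OmT I}

/-- position, in the Darboux coordinate -/
def QS (z : X × X) (w : E2 × E2) : E2 := (RT I z (w.1, w.2 + g0 I z.1 w.1)).2

/-- momentum, in the Darboux coordinate -/
def PS (z : X × X) (w : E2 × E2) : E2 :=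
  PT I z (w.1, w.2 + g0 I z.1 w.1) - g0 I z.2 (QS I z w)

theorem shift_jc : JC (fun (z : X × X) (w : E2 × E2) => (w.1, w.2 + g0 I z.1 w.1))
    {p : (X × X) × (E2 × E2) | p.2.1 ∈ ball (0 : E2) 3} := by
  have hO : IsOpen {p : (X × X) × (E2 × E2) | p.2.1 ∈ ball (0 : E2) 3} :=
    isOpen_ball.preimage (by fun_prop)
  have h1 : JC (fun (_ : X × X) (w : E2 × E2) => w)
      {p : (X × X) × (E2 × E2) | p.2.1 ∈ ball (0 : E2) 3} := JC.id hO
  have h2 := ((g0_jc I).pullback (Z' := X × X) continuous_fst).comp' h1.fst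
    fun p hp => ⟨mem_univ _, hp⟩
  exact h1.fst.prodMk (h1.snd.add h2)

theorem isOpen_OmS : IsOpen (OmS I) := by
  have h := (shift_jc I).continuousOn
  have h2 : ContinuousOn (fun p : (X × X) × (E2 × E2) =>
      ((p.1, (p.2.1, p.2.2 + g0 I p.1.1 p.2.1)) : (X × X) × (E2 × E2)))
      {p | p.2.1 ∈ ball (0 : E2) 3} := continuous_fst.continuousOn.prodMk h
  exact h2.isOpen_inter_preimage (shift_jc I).isOpen (isOpen_OmT I)

theorem shift_jc' : JC (fun (z : X × X) (w : E2 × E2) => (w.1, w.2 + g0 I z.1 w.1)) (OmS I) :=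
  (shift_jc I).mono (isOpen_OmS I) fun _ hp => hp.1

theorem QS_jc : JC (QS I) (OmS I) :=
  ((RT_jc I).comp' (shift_jc' I) fun _ hp => hp.2).snd

theorem QS_mem {p : (X × X) × (E2 × E2)} (hp : p ∈ OmS I) :
    QS I p.1 p.2 ∈ ball (0 : E2) 3 := (OmT_spec I hp.2).2.1.1

theorem PS_jc : JC (PS I) (OmS I) := by
  have h1 := (PT_jc I).comp' (shift_jc' I) fun _ hp => hp.2
  have h2 := ((g0_jc I).pullback (Z' := X × X) continuous_snd).comp' (QS_jc I)
    fun p hp => ⟨mem_univ _, QS_mem I hp⟩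
  exact h1.sub h2

/-- **(E2)** the transition maps the leaf `ξ` to the leaf `ξ` -/
theorem QS_spec {x y : X} {q : E2} {ξ : B} (hn : 0 < nu I x ξ q)
    (hp : ((x, y), (q, gradient (be I x ξ) q - g0 I x q)) ∈ OmS I) :
    QS I (x, y) (q, gradient (be I x ξ) q - g0 I x q) ∈ ball (0 : E2) 3 ∧
    en I y ξ (QS I (x, y) (q, gradient (be I x ξ) q - g0 I x q)) = en I x ξ q ∧
    0 < nu I y ξ (QS I (x, y) (q, gradient (be I x ξ) q - g0 I x q)) ∧
    gradient (be I y ξ) (QS I (x, y) (q, gradient (be I x ξ) q - g0 I x q))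
      - g0 I y (QS I (x, y) (q, gradient (be I x ξ) q - g0 I x q))
      = PS I (x, y) (q, gradient (be I x ξ) q - g0 I x q) ∧
    ∀ q' ∈ ball (0 : E2) 3, en I y ξ q' = en I x ξ q →
      q' = QS I (x, y) (q, gradient (be I x ξ) q - g0 I x q) := by
  have hq : q ∈ ball (0 : E2) 3 := hp.1
  obtain ⟨-, h2⟩ := hp
  change ((x, y), (q, gradient (be I x ξ) q - g0 I x q + g0 I x q)) ∈ OmT I at h2
  have hQ : QS I (x, y) (q, gradient (be I x ξ) q - g0 I x q)
      = (RT I (x, y) (q, gradient (be I x ξ) q)).2 := by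
    change (RT I (x, y) (q, gradient (be I x ξ) q - g0 I x q + g0 I x q)).2 = _
    rw [sub_add_cancel]
  have hPS : PS I (x, y) (q, gradient (be I x ξ) q - g0 I x q)
      = PT I (x, y) (q, gradient (be I x ξ) q) - g0 I y (RT I (x, y)
        (q, gradient (be I x ξ) q)).2 := by
    rw [← hQ]
    change PT I (x, y) (q, gradient (be I x ξ) q - g0 I x q + g0 I x q) - _ = _
    rw [sub_add_cancel]
  rw [sub_add_cancel] at h2
  have hl := lbP_eq I hq hn
  obtain ⟨h3, h4, h5, h6⟩ := OmT_spec I h2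
  rw [hQ, hPS]
  have h7 := Cr.en I h4
  have h8 : 0 < nu I y (lbP I x (q, gradient (be I x ξ) q))
    (RT I (x, y) (q, gradient (be I x ξ) q)).2 := h5
  change en I y (lbP I x (q, gradient (be I x ξ) q)) _ =
    en I x (lbP I x (q, gradient (be I x ξ) q)) q at h7
  rw [hl] at h7 h8
  refine ⟨h4.1, h7, h8, ?_, fun q' hq' hqq => ?_⟩
  · rw [PT]
    change _ = gradient (be I y (lbP I x (q, gradient (be I x ξ) q))) _ - _
    rw [hl]
  · obtain ⟨s, hs⟩ := exists_Cr I (x := x) (y := y) (z := (q, gradient (be I x ξ) q)) hq' (by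
      rw [hl]; exact hqq)
    exact congrArg Prod.snd (h6 _ hs)

/-- **(E3)** the zero section -/
theorem zero_mem_OmS {x y : X} (he : L.em x = L.em y) {q : E2} (hq : q ∈ L.dm x y) :
    ((x, y), (q, 0)) ∈ OmS I := by
  refine ⟨hq.1, ?_⟩
  change ((x, y), (q, 0 + g0 I x q)) ∈ OmT I
  rw [zero_add]
  exact mem_OmT I he hq

theorem QS_zero {x y : X} (he : L.em x = L.em y) {q : E2} (hq : q ∈ L.dm x y) :
    QS I (x, y) (q, 0) = L.τ x y q := by
  have h1 := zero_mem_OmS I he hq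
  have h2 : gradient (be I x (L.em x)) q - g0 I x q = 0 := sub_self _
  have h3 := QS_spec I (x := x) (y := y) (ξ := L.em x) (nu_em_pos I x hq.1)
    (by rw [h2]; exact h1)
  rw [h2] at h3
  obtain ⟨h4, h5, -, -, -⟩ := h3
  rw [he, ← e_eq_en I y (ball_subset_closedBall h4), ← he,
    ← e_eq_en I x (ball_subset_closedBall hq.1)] at h5
  have h6 := (L.e_inj y).leftInvOn_invFunOn (ball_subset_closedBall h4)
  rw [h5] at h6
  exact h6.symm

theorem PS_zero {x y : X} (he : L.em x = L.em y) {q : E2} (hq : q ∈ L.dm x y) :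
    PS I (x, y) (q, 0) = 0 := by
  have h1 := zero_mem_OmS I he hq
  have h2 : gradient (be I x (L.em x)) q - g0 I x q = 0 := sub_self _
  have h3 := QS_spec I (x := x) (y := y) (ξ := L.em x) (nu_em_pos I x hq.1)
    (by rw [h2]; exact h1)
  rw [h2] at h3
  obtain ⟨-, -, -, h7, -⟩ := h3
  rw [← h7, he]
  exact sub_self _

variable {I} in
theorem OmS_smul (hD : DiscX I) (g : Γ) {x y : X} {w : E2 × E2} (h : ((x, y), w) ∈ OmS I) :
    ((g • x, g • y), w) ∈ OmS I := by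
  obtain ⟨h1, h2⟩ := h
  refine ⟨h1, ?_⟩
  change ((g • x, g • y), (w.1, w.2 + g0 I (g • x) w.1)) ∈ OmT I
  rw [g0_smul hD g x h1]
  exact OmT_smul hD g h2

variable {I} in
theorem QS_smul (hD : DiscX I) (g : Γ) {x y : X} {w : E2 × E2} (h : ((x, y), w) ∈ OmS I) :
    QS I (g • x, g • y) w = QS I (x, y) w := by
  obtain ⟨h1, h2⟩ := h
  change (RT I (g • x, g • y) (w.1, w.2 + g0 I (g • x) w.1)).2 =
    (RT I (x, y) (w.1, w.2 + g0 I x w.1)).2
  rw [g0_smul hD g x h1, RT_smul hD g h2]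

variable {I} in
theorem PS_smul (hD : DiscX I) (g : Γ) {x y : X} {w : E2 × E2} (h : ((x, y), w) ∈ OmS I) :
    PS I (g • x, g • y) w = PS I (x, y) w := by
  have h3 := QS_smul hD g h
  have h4 := QS_mem I h
  obtain ⟨h1, h2⟩ := h
  change PT I (g • x, g • y) (w.1, w.2 + g0 I (g • x) w.1) - g0 I (g • y) (QS I (g • x, g • y) w)
    = PT I (x, y) (w.1, w.2 + g0 I x w.1) - g0 I y (QS I (x, y) w)
  rw [h3, g0_smul hD g x h1, PT_smul hD g h2, g0_smul hD g y h4]

end Vale.Agent.P207.N4.H248
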