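import Vale.Agent.P207.N4.H248.DTrD

/-!
# P207: the Darboux transition, part E: uniformity
-/

set_option linter.unusedSectionVars false

open Set Filter Topology Metric
open scoped ContDiff

noncomputable section

namespace Vale.Agent.P207.N4.H248

open Vale.Agent.P207.N3

open Vale.Agent.P207.N4.H722
open Vale.Agent.P207.N4.H862

variable [Dim] {Γ X B : Type} [Group Γ] [MetricSpace X] [ProperSpace X] [MulAction Γ X]
  [IsIsometricSMul Γ X] [TopologicalSpace B] [CompactSpace B] [T2Space B] [MulAction Γ B]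
  [ContinuousConstSMul Γ B] {L : Leaf Γ X B} {V : Type} [NormedAddCommGroup V] [NormedSpace ℝ V]
  [FiniteDimensional ℝ V] {I : GeoIn L V}

theorem OmS_smul_iff (hD : DiscX I) (g : Γ) {x y : X} {w : E2 × E2} :
    ((g • x, g • y), w) ∈ OmS I ↔ ((x, y), w) ∈ OmS I := by
  refine ⟨fun h => ?_, OmS_smul hD g⟩
  have h1 := OmS_smul hD g⁻¹ h
  rwa [inv_smul_smul, inv_smul_smul] at h1

theorem QS_ev (hD : DiscX I) (g : Γ) {z : X × X} {w : E2 × E2} (h : (z, w) ∈ OmS I) :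
    QS I (g • z.1, g • z.2) =ᶠ[𝓝 w] QS I z := by
  have h1 : {w | (z, w) ∈ OmS I} ∈ 𝓝 w := (isOpen_slice (isOpen_OmS I) z).mem_nhds h
  filter_upwards [h1] with u hu using QS_smul hD g hu

theorem PS_ev (hD : DiscX I) (g : Γ) {z : X × X} {w : E2 × E2} (h : (z, w) ∈ OmS I) :
    PS I (g • z.1, g • z.2) =ᶠ[𝓝 w] PS I z := by
  have h1 : {w | (z, w) ∈ OmS I} ∈ 𝓝 w := (isOpen_slice (isOpen_OmS I) z).mem_nhds h
  filter_upwards [h1] with u hu using PS_smul hD g hu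

/-- **(E5)** uniform bounds of the transition -/
theorem unif_S (hD : DiscX I) {Zs K : Set (X × X)} (hK : IsCompact K)
    (hcov : ∀ z ∈ Zs, ∃ g : Γ, (g • z.1, g • z.2) ∈ K) {r : ℝ}
    (hz : ∀ z ∈ K, L.em z.1 = L.em z.2 ∧ closedBall (0 : E2) r ⊆ L.dm z.1 z.2) :
    ∃ ρ > 0, (∀ z ∈ Zs, ∀ w ∈ closedBall (0 : E2) r ×ˢ closedBall (0 : E2) ρ, (z, w) ∈ OmS I) ∧
      ∀ k : ℕ, ∃ C, ∀ z ∈ Zs, ∀ w ∈ closedBall (0 : E2) r ×ˢ closedBall (0 : E2) ρ,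
        ‖iteratedFDeriv ℝ k (QS I z) w‖ ≤ C ∧ ‖iteratedFDeriv ℝ k (PS I z) w‖ ≤ C := by
  have hc0 : IsCompact (K ×ˢ (closedBall (0 : E2) r ×ˢ ({0} : Set E2))) :=
    hK.prod ((isCompact_closedBall _ _).prod isCompact_singleton)
  have hs0 : K ×ˢ (closedBall (0 : E2) r ×ˢ ({0} : Set E2)) ⊆ OmS I := by
    rintro ⟨⟨x, y⟩, ⟨q, π⟩⟩ ⟨h1, h2, h3⟩
    have h3' : π = 0 := h3
    subst h3'
    exact zero_mem_OmS I (hz _ h1).1 ((hz _ h1).2 h2)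
  obtain ⟨ρ, hρ, hsub⟩ := hc0.exists_cthickening_subset_open (isOpen_OmS I) hs0
  have hs1 : K ×ˢ (closedBall (0 : E2) r ×ˢ closedBall (0 : E2) ρ) ⊆ OmS I := by
    rintro ⟨z, ⟨q, π⟩⟩ ⟨h1, h2, h3⟩
    refine hsub (mem_cthickening_of_dist_le (z, (q, π)) (z, (q, 0)) ρ _ ⟨h1, h2, rfl⟩ ?_)
    have h4 : dist q q ≤ ρ := (dist_self q).le.trans hρ.le
    have h5 : dist z z ≤ ρ := (dist_self z).le.trans hρ.le
    exact max_le h5 (max_le h4 h3)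
  have hc1 : IsCompact (K ×ˢ (closedBall (0 : E2) r ×ˢ closedBall (0 : E2) ρ)) :=
    hK.prod ((isCompact_closedBall _ _).prod (isCompact_closedBall _ _))
  have hmem : ∀ z ∈ Zs, ∀ w ∈ closedBall (0 : E2) r ×ˢ closedBall (0 : E2) ρ, (z, w) ∈ OmS I := by
    intro z hzs w hw
    obtain ⟨g, hg⟩ := hcov z hzs
    exact (OmS_smul_iff hD g).1 (hs1 (show ((g • z.1, g • z.2), w) ∈ _ from ⟨hg, hw⟩))
  refine ⟨ρ, hρ, hmem, fun k => ?_⟩
  obtain ⟨C₁, h1⟩ := (QS_jc I).bound hc1 hs1 k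
  obtain ⟨C₂, h2⟩ := (PS_jc I).bound hc1 hs1 k
  refine ⟨max C₁ C₂, fun z hzs w hw => ?_⟩
  obtain ⟨g, hg⟩ := hcov z hzs
  have h3 := h1 ((g • z.1, g • z.2), w) ⟨hg, hw⟩
  have h4 := h2 ((g • z.1, g • z.2), w) ⟨hg, hw⟩
  have h5 := ((QS_ev hD g (hmem z hzs w hw)).iteratedFDeriv ℝ k).eq_of_nhds
  have h6 := ((PS_ev hD g (hmem z hzs w hw)).iteratedFDeriv ℝ k).eq_of_nhds
  change ‖iteratedFDeriv ℝ k (QS I (g • z.1, g • z.2)) w‖ ≤ C₁ at h3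
  change ‖iteratedFDeriv ℝ k (PS I (g • z.1, g • z.2)) w‖ ≤ C₂ at h4
  rw [h5] at h3
  rw [h6] at h4
  exact ⟨h3.trans (le_max_left _ _), h4.trans (le_max_right _ _)⟩

/-! ### the flow -/

theorem dm_smul (g : Γ) (x y : X) : L.dm (g • x) (g • y) = L.dm x y := by
  have key : ∀ (g : Γ) (x y : X), L.dm x y ⊆ L.dm (g • x) (g • y) := by
    rintro g x y q ⟨h1, v, h2, h3⟩
    refine ⟨h1, v, h2, ?_⟩
    rw [L.e_smul g y v (ball_subset_closedBall h2), L.e_smul g x q (ball_subset_closedBall h1),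
      h3]
  refine Subset.antisymm ?_ (key g x y)
  have h := key g⁻¹ (g • x) (g • y)
  rwa [inv_smul_smul, inv_smul_smul] at h

theorem isOpen_dm2 : IsOpen {p : (X × X) × E2 | p.2 ∈ L.dm p.1.1 p.1.2} := by
  have h1 : ContinuousOn (fun p : (X × X) × E2 => ((p.1.2, L.e p.1.1 p.2) : X × B))
      {p | p.2 ∈ ball (0 : E2) 3} := by
    refine continuous_snd.fst'.continuousOn.prodMk ?_
    exact L.e_cont.comp (f := fun p : (X × X) × E2 => ((p.1.1, p.2) : X × E2)) (by fun_prop)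
      fun p hp => ⟨mem_univ _, ball_subset_closedBall hp⟩
  exact h1.isOpen_inter_preimage (isOpen_ball.preimage continuous_snd) L.e_open

theorem dm_engulf (x : X) {t : ℝ} (ht : t ≤ -L.t1) : ball (0 : E2) 3 ⊆ L.dm x (L.φ t x) := by
  intro q hq
  refine ⟨hq, ?_⟩
  have h := L.engulf (L.φ t x) (-t) (by linarith)
  rw [← L.φ_add, neg_add_cancel, L.φ_zero] at h
  have h1 := h (mem_image_of_mem _ (ball_subset_closedBall hq))
  exact image_mono (ball_subset_ball (by norm_num)) h1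

theorem flow_cont : Continuous fun p : X × ℝ => ((p.1, L.φ p.2 p.1) : X × X) :=
  continuous_fst.prodMk (L.φ_cont.comp (continuous_snd.prodMk continuous_fst))

theorem zero_mem_dm (x : X) (t : ℝ) : (0 : E2) ∈ L.dm x (L.φ t x) := by
  refine ⟨mem_ball_self (by norm_num), 0, mem_ball_self (by norm_num), ?_⟩
  rw [L.e_zero, L.e_zero, L.ep_flip, L.ep_flip, L.flip_φ, L.em_φ]

theorem exists_dm (L : Leaf Γ X B) (T : ℝ) :
    ∃ r > 0, ∀ x, ∀ t ∈ Icc (-T) T, closedBall (0 : E2) r ⊆ L.dm x (L.φ t x) := by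
  obtain ⟨K, hK, hcov⟩ := L.cocompact
  have hc : IsCompact ((fun p : X × ℝ => ((p.1, L.φ p.2 p.1) : X × X)) '' (K ×ˢ Icc (-T) T)) :=
    (hK.prod isCompact_Icc).image (flow_cont (L := L))
  have hc2 := hc.prod (isCompact_singleton (x := (0 : E2)))
  have hs : ((fun p : X × ℝ => ((p.1, L.φ p.2 p.1) : X × X)) '' (K ×ˢ Icc (-T) T)) ×ˢ
      ({0} : Set E2) ⊆ {p : (X × X) × E2 | p.2 ∈ L.dm p.1.1 p.1.2} := by
    rintro ⟨_, q⟩ ⟨⟨⟨x, t⟩, -, rfl⟩, hq⟩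
    have hq' : q = 0 := hq
    subst hq'
    exact zero_mem_dm x t
  obtain ⟨r, hr, hsub⟩ := hc2.exists_cthickening_subset_open (isOpen_dm2 (L := L)) hs
  refine ⟨r, hr, fun x t ht q hq => ?_⟩
  obtain ⟨g, hg⟩ := hcov x
  have h1 : (((g • x, L.φ t (g • x)), q) : (X × X) × E2) ∈
      {p : (X × X) × E2 | p.2 ∈ L.dm p.1.1 p.1.2} := by
    refine hsub (mem_cthickening_of_dist_le _ (((g • x, L.φ t (g • x)), 0) : (X × X) × E2) r _
      ⟨⟨(g • x, t), ⟨hg, ht⟩, rfl⟩, rfl⟩ ?_)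
    exact max_le ((dist_self _).le.trans hr.le) hq
  have h2 : q ∈ L.dm (g • x) (L.φ t (g • x)) := h1
  rwa [L.φ_smul, dm_smul] at h2

/-- **(E5)** uniform bounds of the transition along the flow -/
theorem unif_flow (hD : DiscX I) {τ₁ τ₂ r : ℝ}
    (hdm : ∀ x, ∀ t ∈ Icc τ₁ τ₂, closedBall (0 : E2) r ⊆ L.dm x (L.φ t x)) :
    ∃ ρ > 0, (∀ x, ∀ t ∈ Icc τ₁ τ₂, ∀ w ∈ closedBall (0 : E2) r ×ˢ closedBall (0 : E2) ρ,
        ((x, L.φ t x), w) ∈ OmS I) ∧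
      ∀ k : ℕ, ∃ C, ∀ x, ∀ t ∈ Icc τ₁ τ₂, ∀ w ∈ closedBall (0 : E2) r ×ˢ closedBall (0 : E2) ρ,
        ‖iteratedFDeriv ℝ k (QS I (x, L.φ t x)) w‖ ≤ C ∧
        ‖iteratedFDeriv ℝ k (PS I (x, L.φ t x)) w‖ ≤ C := by
  obtain ⟨K, hK, hcov⟩ := L.cocompact
  have hc : IsCompact ((fun p : X × ℝ => ((p.1, L.φ p.2 p.1) : X × X)) '' (K ×ˢ Icc τ₁ τ₂)) :=
    (hK.prod isCompact_Icc).image (flow_cont (L := L))
  obtain ⟨ρ, hρ, h1, h2⟩ := unif_S hD (Zs := {z | ∃ t ∈ Icc τ₁ τ₂, z.2 = L.φ t z.1}) (r := r) hc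
    (by
      rintro ⟨x, y⟩ ⟨t, ht, hy⟩
      obtain ⟨g, hg⟩ := hcov x
      refine ⟨g, (g • x, t), ⟨hg, ht⟩, ?_⟩
      change ((g • x, L.φ t (g • x)) : X × X) = (g • x, g • y)
      rw [L.φ_smul, show y = L.φ t x from hy])
    (by
      rintro _ ⟨⟨x, t⟩, ⟨-, ht⟩, rfl⟩
      exact ⟨(L.em_φ t x).symm, hdm x t ht⟩)
  refine ⟨ρ, hρ, fun x t ht w hw => h1 _ ⟨t, ht, rfl⟩ w hw, fun k => ?_⟩
  obtain ⟨C, hC⟩ := h2 k
  exact ⟨C, fun x t ht w hw => hC _ ⟨t, ht, rfl⟩ w hw⟩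

end Vale.Agent.P207.N4.H248
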