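import Vale.Agent.P207.N4.H248.DTrE

/-!
# P207: the Darboux transition, part F: the transition along one leaf `ξ`

`dg I x ξ q` : the Darboux momentum of the direction from `ξ` at the point `q` of the disc of `x`;
`TT I x y ξ q` : the point of the disc of `y` on the geodesic from `ξ` through this point.
-/

set_option linter.unusedSectionVars false

open Set Filter Topology Metric
open scoped ContDiff

noncomputable section

namespace Vale.Agent.P207.N4.H248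

open Vale.Agent.P207.N3

open Vale.Agent.P207.N4.H722
open Vale.Agent.P207.N4.H862

variable [Dim] {Γ X B : Type} [Group Γ] [MetricSpace X] [ProperSpace X] [MulAction Γ X]
  [IsIsometricSMul Γ X] [TopologicalSpace B] [CompactSpace B] [T2Space B] [MulAction Γ B]
  [ContinuousConstSMul Γ B] {L : Leaf Γ X B} {V : Type} [NormedAddCommGroup V] [NormedSpace ℝ V]
  [FiniteDimensional ℝ V] (I : GeoIn L V)

/-- the Darboux momentum of the direction from `ξ` -/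
def dg (x : X) (ξ : B) (q : E2) : E2 := gradient (be I x ξ) q - g0 I x q

/-- `TT I x y ξ` : from the disc of `x` to the disc of `y`, along the geodesics from `ξ` -/
def TT (x y : X) (ξ : B) (q : E2) : E2 := QS I (x, y) (q, dg I x ξ q)

theorem dg_em (x : X) (q : E2) : dg I x (L.em x) q = 0 := sub_self _

theorem be_jc' : JC (fun (p : X × B) q => be I p.1 p.2 q) (univ ×ˢ ball 0 3) := by
  have hO : IsOpen (univ ×ˢ ball (0 : E2) 3 : Set ((X × B) × E2)) := isOpen_univ.prod isOpen_ball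
  have h2 : JC (fun (p : X × B) (q : E2) => disc I p.1 q) (univ ×ˢ ball 0 3) :=
    ((disc_jc I).pullback (Z' := X × B) continuous_fst).mono hO
      fun p hp => ⟨mem_univ _, mem3 I hp.2⟩
  have h3 : JC (fun (p : X × B) (q : E2) => I.b p.2 (disc I p.1 q)) (univ ×ˢ ball 0 3) :=
    (I.b_jc.pullback (Z' := X × B) continuous_snd).comp' h2 fun _ _ => mem_univ _
  have h5 : Continuous fun p : B × V => I.b p.1 p.2 := by
    have h := I.b_jc.continuousOn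
    rwa [continuousOn_univ] at h
  have h4 : JC (fun (p : X × B) (_ : E2) => I.b p.2 (I.S.ft p.1)) (univ ×ˢ ball 0 3) :=
    JC.param' hO (h5.comp (continuous_snd.prodMk (I.ft_cont.comp continuous_fst)))
  exact h3.sub h4

theorem dg_jc : JC (fun (p : X × B) q => dg I p.1 p.2 q) (univ ×ˢ ball 0 3) := by
  have hO : IsOpen (univ ×ˢ ball (0 : E2) 3 : Set ((X × B) × E2)) := isOpen_univ.prod isOpen_ball
  have h1 : JC (fun (p : X × B) q => cvv (fderiv ℝ (be I p.1 p.2) q)) (univ ×ˢ ball 0 3) :=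
    (be_jc' I).fderiv.clm cvv
  have h2 : JC (fun (p : X × B) q => g0 I p.1 q) (univ ×ˢ ball 0 3) :=
    ((g0_jc I).pullback (Z' := X × B) continuous_fst).mono hO fun p hp => ⟨mem_univ _, hp.2⟩
  exact h1.sub h2

/-- `dg` is the gradient of the generating function of the leaf `ξ` -/
theorem gradient_dl (x : X) (ξ : B) {q : E2} (hq : q ∈ ball (0 : E2) 3) :
    gradient (fun q => be I x ξ q - be I x (L.em x) q) q = dg I x ξ q := by
  have h1 : DifferentiableAt ℝ (be I x ξ) q := (hasFDerivAt_be I x ξ (mem3 I hq)).differentiableAt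
  have h2 : DifferentiableAt ℝ (be I x (L.em x)) q :=
    (hasFDerivAt_be I x _ (mem3 I hq)).differentiableAt
  have h3 : fderiv ℝ (fun q => be I x ξ q - be I x (L.em x) q) q =
      fderiv ℝ (be I x ξ) q - fderiv ℝ (be I x (L.em x)) q :=
    (h1.hasFDerivAt.sub h2.hasFDerivAt).fderiv
  rw [dg, g0, gradient_cvv, gradient_cvv, gradient_cvv, h3, map_sub]

/-- **the transition along the leaf `ξ`** -/
theorem TT_spec {x y : X} {q : E2} {ξ : B} (hn : 0 < nu I x ξ q)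
    (hp : ((x, y), (q, dg I x ξ q)) ∈ OmS I) :
    TT I x y ξ q ∈ ball (0 : E2) 3 ∧ en I y ξ (TT I x y ξ q) = en I x ξ q ∧
    0 < nu I y ξ (TT I x y ξ q) ∧
    dg I y ξ (TT I x y ξ q) = PS I (x, y) (q, dg I x ξ q) ∧
    ∀ q' ∈ ball (0 : E2) 3, en I y ξ q' = en I x ξ q → q' = TT I x y ξ q :=
  QS_spec I hn hp

theorem TT_em {x y : X} (he : L.em x = L.em y) {q : E2} (hq : q ∈ L.dm x y) :
    TT I x y (L.em x) q = L.τ x y q := by
  rw [TT, dg_em, QS_zero I he hq]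

theorem TT_hasFDerivAt {x y : X} {q : E2} {ξ : B} (hp : ((x, y), (q, dg I x ξ q)) ∈ OmS I) :
    HasFDerivAt (TT I x y ξ) ((fderiv ℝ (QS I (x, y)) (q, dg I x ξ q)).comp
      ((ContinuousLinearMap.id ℝ E2).prod (fderiv ℝ (dg I x ξ) q))) q := by
  have h1 : HasFDerivAt (QS I (x, y)) (fderiv ℝ (QS I (x, y)) (q, dg I x ξ q)) (q, dg I x ξ q) :=
    (QS_jc I).hasFDerivAt hp
  have h2 : HasFDerivAt (dg I x ξ) (fderiv ℝ (dg I x ξ) q) q :=
    (dg_jc I).hasFDerivAt (p := ((x, ξ), q)) ⟨mem_univ _, hp.1⟩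
  have h3 : HasFDerivAt (fun q => ((q, dg I x ξ q) : E2 × E2))
      ((ContinuousLinearMap.id ℝ E2).prod (fderiv ℝ (dg I x ξ) q)) q :=
    (hasFDerivAt_id q).prodMk h2
  exact h1.comp q h3

theorem dm_open (x y : X) {q : E2} (hq : q ∈ L.dm x y) : L.dm x y ∈ 𝓝 q :=
  (isOpen_slice (isOpen_dm2 (L := L)) (x, y)).mem_nhds hq

theorem tau_fderiv {x y : X} (he : L.em x = L.em y) {q : E2} (hq : q ∈ L.dm x y) :
    fderiv ℝ (L.τ x y) q =
      (fderiv ℝ (QS I (x, y)) (q, 0)).comp (ContinuousLinearMap.inl ℝ E2 E2) := by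
  have h1 : HasFDerivAt (QS I (x, y)) (fderiv ℝ (QS I (x, y)) (q, 0)) (q, 0) :=
    (QS_jc I).hasFDerivAt (zero_mem_OmS I he hq)
  have h2 : HasFDerivAt (fun q : E2 => ((q, 0) : E2 × E2)) (ContinuousLinearMap.inl ℝ E2 E2) q :=
    hasFDerivAt_prodMk_left q 0
  have h3 := HasFDerivAt.comp q h1 h2
  refine HasFDerivAt.fderiv (h3.congr_of_eventuallyEq ?_)
  filter_upwards [dm_open x y hq] with u hu
  exact (QS_zero I he hu).symm

variable {I}

/-- two bounds of the first derivative of the transition on a convex set -/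
theorem QS_lip {z : X × X} {r ρ C₁ C₂ : ℝ}
    (hm : ∀ w ∈ closedBall (0 : E2) r ×ˢ closedBall (0 : E2) ρ, (z, w) ∈ OmS I)
    (h1 : ∀ w ∈ closedBall (0 : E2) r ×ˢ closedBall (0 : E2) ρ,
      ‖iteratedFDeriv ℝ 1 (QS I z) w‖ ≤ C₁)
    (h2 : ∀ w ∈ closedBall (0 : E2) r ×ˢ closedBall (0 : E2) ρ,
      ‖iteratedFDeriv ℝ 2 (QS I z) w‖ ≤ C₂) :
    ∀ w ∈ closedBall (0 : E2) r ×ˢ closedBall (0 : E2) ρ,
    ∀ w' ∈ closedBall (0 : E2) r ×ˢ closedBall (0 : E2) ρ,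
      ‖fderiv ℝ (QS I z) w‖ ≤ C₁ ∧ ‖QS I z w - QS I z w'‖ ≤ C₁ * ‖w - w'‖ ∧
      ‖fderiv ℝ (QS I z) w - fderiv ℝ (QS I z) w'‖ ≤ C₂ * ‖w - w'‖ := by
  intro w hw w' hw'
  have hconv : Convex ℝ (closedBall (0 : E2) r ×ˢ closedBall (0 : E2) ρ) :=
    (convex_closedBall _ _).prod (convex_closedBall _ _)
  have e1 : ∀ w ∈ closedBall (0 : E2) r ×ˢ closedBall (0 : E2) ρ,
      ‖fderiv ℝ (QS I z) w‖ ≤ C₁ := fun w hw => by
    rw [← norm_iteratedFDeriv_one]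
    exact h1 w hw
  have e2 : ∀ w ∈ closedBall (0 : E2) r ×ˢ closedBall (0 : E2) ρ,
      ‖fderiv ℝ (fderiv ℝ (QS I z)) w‖ ≤ C₂ := fun w hw => by
    rw [← norm_iteratedFDeriv_one, norm_iteratedFDeriv_fderiv]
    exact h2 w hw
  refine ⟨e1 w hw, ?_, ?_⟩
  · exact hconv.norm_image_sub_le_of_norm_fderiv_le (𝕜 := ℝ)
      (fun u hu => (QS_jc I).differentiableAt (hm u hu)) e1 hw' hw
  · exact hconv.norm_image_sub_le_of_norm_fderiv_le (𝕜 := ℝ)
      (fun u hu => (QS_jc I).fderiv.differentiableAt (hm u hu)) e2 hw' hw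

/-- **the transition along the leaf `ξ` is close to the transition along the leaf of `x`**,
uniformly -/
theorem TT_flow (hD : DiscX I) {τ₁ τ₂ r : ℝ}
    (hdm : ∀ x, ∀ t ∈ Icc τ₁ τ₂, closedBall (0 : E2) r ⊆ L.dm x (L.φ t x)) :
    ∃ ρ > 0, ∃ C > 0, ∀ x, ∀ t ∈ Icc τ₁ τ₂, ∀ ξ, ∀ q ∈ closedBall (0 : E2) r,
      0 < nu I x ξ q → ‖dg I x ξ q‖ ≤ ρ →
      ((x, L.φ t x), (q, dg I x ξ q)) ∈ OmS I ∧
      TT I x (L.φ t x) ξ q ∈ ball (0 : E2) 3 ∧
      en I (L.φ t x) ξ (TT I x (L.φ t x) ξ q) = en I x ξ q ∧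
      0 < nu I (L.φ t x) ξ (TT I x (L.φ t x) ξ q) ∧
      dg I (L.φ t x) ξ (TT I x (L.φ t x) ξ q) = PS I (x, L.φ t x) (q, dg I x ξ q) ∧
      (∀ q' ∈ ball (0 : E2) 3, en I (L.φ t x) ξ q' = en I x ξ q → q' = TT I x (L.φ t x) ξ q) ∧
      DifferentiableAt ℝ (TT I x (L.φ t x) ξ) q ∧
      ‖TT I x (L.φ t x) ξ q - L.τ x (L.φ t x) q‖ ≤ C * ‖dg I x ξ q‖ ∧
      ∀ q₀ ∈ closedBall (0 : E2) r,
        ‖fderiv ℝ (TT I x (L.φ t x) ξ) q - fderiv ℝ (L.τ x (L.φ t x)) q₀‖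
          ≤ C * (‖q - q₀‖ + ‖dg I x ξ q‖ + ‖fderiv ℝ (dg I x ξ) q‖) := by
  obtain ⟨ρ, hρ, hm, hb⟩ := unif_flow hD hdm
  obtain ⟨C₁, hC₁⟩ := hb 1
  obtain ⟨C₂, hC₂⟩ := hb 2
  refine ⟨ρ, hρ, |C₁| + |C₂| + 1, by positivity, fun x t ht ξ q hq hn hd => ?_⟩
  have hw : ((q, dg I x ξ q) : E2 × E2) ∈ closedBall (0 : E2) r ×ˢ closedBall (0 : E2) ρ :=
    ⟨hq, mem_closedBall_zero_iff.2 hd⟩
  have hz : ∀ q₀ ∈ closedBall (0 : E2) r, ((q₀, 0) : E2 × E2) ∈
      closedBall (0 : E2) r ×ˢ closedBall (0 : E2) ρ := fun q₀ hq₀ =>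
    ⟨hq₀, mem_closedBall_self hρ.le⟩
  have hp := hm x t ht _ hw
  obtain ⟨s1, s2, s3, s4, s5⟩ := TT_spec I hn hp
  have he : L.em x = L.em (L.φ t x) := (L.em_φ t x).symm
  have hlip := QS_lip (I := I) (z := (x, L.φ t x)) (hm x t ht)
    (fun w hw => (hC₁ x t ht w hw).1) (fun w hw => (hC₂ x t ht w hw).1)
  have hTd := TT_hasFDerivAt I hp
  refine ⟨hp, s1, s2, s3, s4, s5, hTd.differentiableAt, ?_, fun q₀ hq₀ => ?_⟩
  · obtain ⟨-, l2, -⟩ := hlip _ hw _ (hz q hq)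
    rw [← QS_zero I he (hdm x t ht hq), TT]
    refine l2.trans ?_
    have e1 : ‖((q, dg I x ξ q) : E2 × E2) - (q, 0)‖ = ‖dg I x ξ q‖ := by
      rw [Prod.mk_sub_mk, sub_self, sub_zero, Prod.norm_mk, norm_zero]
      exact max_eq_right (norm_nonneg _)
    rw [e1]
    refine mul_le_mul_of_nonneg_right ?_ (norm_nonneg _)
    have := le_abs_self C₁
    have := abs_nonneg C₂
    linarith
  · obtain ⟨l1, -, l3⟩ := hlip _ hw _ (hz q₀ hq₀)
    rw [hTd.fderiv, tau_fderiv I he (hdm x t ht hq₀)]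
    set D := fderiv ℝ (QS I (x, L.φ t x)) (q, dg I x ξ q) with hD'
    set D₀ := fderiv ℝ (QS I (x, L.φ t x)) (q₀, 0) with hD₀
    set A := fderiv ℝ (dg I x ξ) q with hA
    have e1 : ‖((q, dg I x ξ q) : E2 × E2) - (q₀, 0)‖ ≤ ‖q - q₀‖ + ‖dg I x ξ q‖ := by
      rw [Prod.mk_sub_mk, sub_zero, Prod.norm_mk]
      exact max_le (le_add_of_nonneg_right (norm_nonneg _))
        (le_add_of_nonneg_left (norm_nonneg _))
    have hb1 : ‖D - D₀‖ ≤ |C₂| * (‖q - q₀‖ + ‖dg I x ξ q‖) :=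
      l3.trans ((mul_le_mul_of_nonneg_right (le_abs_self _) (norm_nonneg _)).trans
        (mul_le_mul_of_nonneg_left e1 (abs_nonneg _)))
    have hb2 : ‖D‖ ≤ |C₁| := l1.trans (le_abs_self _)
    refine ContinuousLinearMap.opNorm_le_bound _ (by positivity) fun v => ?_
    have e2 : (D.comp ((ContinuousLinearMap.id ℝ E2).prod A)
        - D₀.comp (ContinuousLinearMap.inl ℝ E2 E2)) v = (D - D₀) (v, 0) + D (0, A v) := by
      change D (v, A v) - D₀ (v, 0) = (D (v, 0) - D₀ (v, 0)) + D (0, A v)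
      have e3 : ((v, A v) : E2 × E2) = (v, 0) + (0, A v) := by simp
      rw [e3, map_add]
      abel
    rw [e2]
    have n1 : ‖((v, 0) : E2 × E2)‖ = ‖v‖ := by
      rw [Prod.norm_mk, norm_zero]
      exact max_eq_left (norm_nonneg _)
    have n2 : ‖((0, A v) : E2 × E2)‖ ≤ ‖A‖ * ‖v‖ := by
      rw [Prod.norm_mk, norm_zero]
      exact max_le (by positivity) (A.le_opNorm v)
    have f1 : ‖(D - D₀) (v, 0)‖ ≤ |C₂| * (‖q - q₀‖ + ‖dg I x ξ q‖) * ‖v‖ := by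
      refine ((D - D₀).le_opNorm _).trans ?_
      rw [n1]
      exact mul_le_mul_of_nonneg_right hb1 (norm_nonneg _)
    have f2 : ‖D (0, A v)‖ ≤ |C₁| * (‖A‖ * ‖v‖) :=
      (D.le_opNorm _).trans (mul_le_mul hb2 n2 (norm_nonneg _) (abs_nonneg _))
    have g1 := norm_nonneg (q - q₀)
    have g2 := norm_nonneg (dg I x ξ q)
    have g3 := norm_nonneg A
    have g4 := norm_nonneg v
    have g5 := abs_nonneg C₁
    have g6 := abs_nonneg C₂
    calc ‖(D - D₀) (v, 0) + D (0, A v)‖ ≤ |C₂| * (‖q - q₀‖ + ‖dg I x ξ q‖) * ‖v‖ +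
          |C₁| * (‖A‖ * ‖v‖) := (norm_add_le _ _).trans (add_le_add f1 f2)
      _ ≤ (|C₁| + |C₂| + 1) * (‖q - q₀‖ + ‖dg I x ξ q‖ + ‖A‖) * ‖v‖ := by
        have k1 : |C₂| * (‖q - q₀‖ + ‖dg I x ξ q‖) + |C₁| * ‖A‖ ≤
            (|C₁| + |C₂| + 1) * (‖q - q₀‖ + ‖dg I x ξ q‖ + ‖A‖) := by nlinarith [mul_nonneg g5 g1, mul_nonneg g5 g2, mul_nonneg g6 g3]
        nlinarith [mul_le_mul_of_nonneg_right k1 g4]

end Vale.Agent.P207.N4.H248
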